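import Vale.Agent.Lib.P347.Shell

open MeasureTheory

namespace Vale.Agent.Lib.P347

variable {d : ℕ}

lemma Sampler.measurable_record (A : Sampler d) {O : E d → ℝ × E d} (hO : Measurable O) (k : ℕ) :
    Measurable (fun ω => A.record O ω k) := by
  induction k with
  | zero => exact measurable_const
  | succ k ih =>
    have hq : Measurable (fun ω => O (A.query k ω (A.record O ω k))) :=
      hO.comp ((A.query_meas k).comp (measurable_id.prodMk ih))
    rw [measurable_pi_iff]
    intro i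
    by_cases hi : i = k
    · subst hi
      simpa [Sampler.record] using hq
    · have : (fun ω => A.record O ω (k + 1) i) = fun ω => A.record O ω k i := by
        funext ω
        simp [Sampler.record, Function.update_of_ne hi]
      rw [this]
      exact (measurable_pi_apply i).comp ih

lemma Sampler.measurable_output_record (A : Sampler d) {O : E d → ℝ × E d} (hO : Measurable O)
    (k : ℕ) : Measurable (fun ω => A.output ω (A.record O ω k)) :=
  A.output_meas.comp (measurable_id.prodMk (A.measurable_record hO k))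

lemma radO_measurable {a0 a1 : ℝ → ℝ} (h0 : Continuous a0) (h1 : Continuous a1) :
    Measurable (radO a0 a1 : E d → ℝ × E d) := by
  apply Continuous.measurable
  unfold radO
  fun_prop

lemma oracle_radial {F F1 : ℝ → ℝ} (h1 : ∀ s, HasDerivAt F (F1 s) s) :
    oracle (radial F : E d → ℝ) = radO F F1 := by
  funext x
  simp [oracle, radO, radial_gradient h1, radial]

/-! ### sums over bit lists -/

lemma sumOver_mono_length (n : ℕ) : ∀ {f g : List Bool → ℝ},
    (∀ l, l.length = n → f l ≤ g l) → sumOver n f ≤ sumOver n g := by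
  induction n with
  | zero => intro f g h; exact h [] rfl
  | succ n ih =>
    intro f g h
    simp only [sumOver]
    exact add_le_add (ih fun l hl => h _ (by simp [hl])) (ih fun l hl => h _ (by simp [hl]))

lemma sumOver_const (n : ℕ) (c : ℝ) : sumOver n (fun _ => c) = 2 ^ n * c := by
  induction n with
  | zero => simp [sumOver]
  | succ n ih => simp only [sumOver, ih, pow_succ]; ring

lemma integral_sumOver {Ω : Type*} [MeasurableSpace Ω] (P : Measure Ω) (n : ℕ) :
    ∀ {f : List Bool → Ω → ℝ}, (∀ l, Integrable (f l) P) →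
    sumOver n (fun l => ∫ ω, f l ω ∂P) = ∫ ω, sumOver n (fun l => f l ω) ∂P ∧
      Integrable (fun ω => sumOver n (fun l => f l ω)) P := by
  induction n with
  | zero => intro f h; exact ⟨rfl, h []⟩
  | succ n ih =>
    intro f h
    obtain ⟨e1, i1⟩ := ih (f := fun l => f (true :: l)) (fun l => h _)
    obtain ⟨e2, i2⟩ := ih (f := fun l => f (false :: l)) (fun l => h _)
    simp only [sumOver]
    refine ⟨?_, i1.add i2⟩
    rw [e1, e2, integral_add i1 i2]

section

variable {κ β0 : ℝ} (hd : 2 ≤ d) (hκ0 : 0 < κ) (hκ : κ ≤ 1 / 4) (hβ0 : 0 < β0)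
  (hβ1 : β0 ≤ (d : ℝ) / 8)

include hd hκ0 hκ hβ0 hβ1

lemma sample_eq (A : Sampler d) (q : ℕ) (l : List Bool) (ω : A.Ω) :
    A.sample q (radial (prof d κ β0 l)) ω
      = A.output ω (A.run (radO (fun s => 3 / 4 * s + pert d κ l (3 / 2) β0 s)
          (fun s => 3 / 4 + pert1 d κ l (3 / 2) β0 s)) ω q 0 (fun _ => 0)) := by
  have hdd : (2 : ℝ) ≤ d := by exact_mod_cast hd
  unfold Sampler.sample
  rw [oracle_radial (prof_hasDerivAt hdd hκ0 hκ hβ0 hβ1 l), Sampler.record_eq_run]
  rfl

lemma measurable_sample (A : Sampler d) (q : ℕ) (l : List Bool) :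
    Measurable (A.sample q (radial (prof d κ β0 l))) := by
  have hdd : (2 : ℝ) ≤ d := by exact_mod_cast hd
  unfold Sampler.sample
  rw [oracle_radial (prof_hasDerivAt hdd hκ0 hκ hβ0 hβ1 l)]
  apply A.measurable_output_record
  apply radO_measurable
  · exact continuous_iff_continuousAt.2 fun s =>
      (prof_hasDerivAt hdd hκ0 hκ hβ0 hβ1 l s).continuousAt
  · exact continuous_iff_continuousAt.2 fun s =>
      (prof1_hasDerivAt hdd hκ0 hκ hβ0 hβ1 l s).continuousAt

lemma T_eq_indicator (A : Sampler d) (q : ℕ) (l : List Bool) (ω : A.Ω) :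
    T d κ A ω q (fun s => 3 / 4 * s) (fun _ => 3 / 4) (3 / 2) β0 0 (fun _ => 0) l
      = ((A.sample q (radial (prof d κ β0 l))) ⁻¹' (shell d κ β0 l)).indicator (fun _ => (1 : ℝ)) ω := by
  unfold T succI
  rw [← sample_eq hd hκ0 hκ hβ0 hβ1 A q l ω]
  by_cases hx : |finD (↑d) κ l (3 / 2) β0 * ‖A.sample q (radial (prof (↑d) κ β0 l)) ω‖ ^ 2
      - ((d : ℝ) - 1)| < 2 * finB κ l β0
  · rw [if_pos hx, Set.indicator_of_mem]
    exact hx
  · rw [if_neg hx, Set.indicator_of_notMem]
    exact hx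

lemma shell_measurable (l : List Bool) : MeasurableSet (shell d κ β0 l) := by
  apply IsOpen.measurableSet
  unfold shell
  apply isOpen_lt <;> fun_prop

lemma integral_T (A : Sampler d) (q : ℕ) (l : List Bool) :
    ∫ ω, T d κ A ω q (fun s => 3 / 4 * s) (fun _ => 3 / 4) (3 / 2) β0 0 (fun _ => 0) l ∂A.P
      = (A.P.map (A.sample q (radial (prof d κ β0 l)))).real (shell d κ β0 l) ∧
    Integrable (fun ω => T d κ A ω q (fun s => 3 / 4 * s) (fun _ => 3 / 4) (3 / 2) β0 0
      (fun _ => 0) l) A.P := by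
  have hm := measurable_sample hd hκ0 hκ hβ0 hβ1 A q l
  have hs := shell_measurable hd hκ0 hκ hβ0 hβ1 l
  simp only [T_eq_indicator hd hκ0 hκ hβ0 hβ1 A q l]
  constructor
  · rw [integral_indicator (hm hs), measureReal_def, Measure.map_apply hm hs]
    simp [measureReal_def]
  · exact (integrable_const (1 : ℝ)).indicator (hm hs)

variable {C1 C2 : ℝ} (hC1 : ∀ y, |g1 y| ≤ C1) (hC1' : 1 ≤ C1) (hC2 : ∀ y, |g2 y| ≤ C2)
  (hC2' : 1 ≤ C2) (hκC : κ * (C1 + 14 * C2) ≤ 1)

include hC1 hC1' hC2 hC2' hκC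

/-- **The finite form of the lower bound.** -/
theorem main_finite (A : Sampler d) (q L : ℕ) {δ w : ℝ} (hA : A.Achieves q δ) (hw : 0 ≤ w)
    (hcond : 7 / 4 * (2 * w * Real.sqrt d + w ^ 2) ≤ 2 * ((κ / 8) ^ L * β0)) :
    (3 / 2 : ℝ) ^ L * (1 - δ - 2 * Real.exp (-(w ^ 2 / 2))) ≤ 3 ^ q := by
  have hdd : (2 : ℝ) ≤ d := by exact_mod_cast hd
  set f : List Bool → A.Ω → ℝ := fun l ω =>
    T d κ A ω q (fun s => 3 / 4 * s) (fun _ => 3 / 4) (3 / 2) β0 0 (fun _ => 0) l with hf
  have hfi : ∀ l, Integrable (f l) A.P := fun l => (integral_T hd hκ0 hκ hβ0 hβ1 A q l).2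
  obtain ⟨e, _⟩ := integral_sumOver A.P L hfi
  -- upper bound
  have hup : ∫ ω, sumOver L (fun l => f l ω) ∂A.P ≤ 3 ^ q * (4 / 3) ^ L := by
    have : ∀ ω, sumOver L (fun l => f l ω) ≤ 3 ^ q * (4 / 3) ^ L := fun ω =>
      counting hdd hκ0 hκ A ω L q _ _ (good_init hdd hκ0 hκ hβ0 hβ1) 0 _
    calc ∫ ω, sumOver L (fun l => f l ω) ∂A.P ≤ ∫ _ω, (3 ^ q * (4 / 3) ^ L : ℝ) ∂A.P :=
          integral_mono_of_nonneg
            (Filter.Eventually.of_forall fun ω => by
              have : ∀ (n : ℕ) (F : List Bool → ℝ), (∀ l, 0 ≤ F l) → 0 ≤ sumOver n F := by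
                intro n
                induction n with
                | zero => intro F hF; exact hF []
                | succ n ih => intro F hF; exact add_nonneg (ih _ fun l => hF _) (ih _ fun l => hF _)
              exact this L _ fun l => succI_nonneg _ _ _ _)
            (integrable_const _) (Filter.Eventually.of_forall this)
      _ = 3 ^ q * (4 / 3) ^ L := by simp
  -- lower bound
  have hlow : 2 ^ L * (1 - δ - 2 * Real.exp (-(w ^ 2 / 2)))
      ≤ sumOver L (fun l => ∫ ω, f l ω ∂A.P) := by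
    rw [← sumOver_const]
    apply sumOver_mono_length
    intro l hl
    rw [(integral_T hd hκ0 hκ hβ0 hβ1 A q l).1]
    have hV := prof_mem_class (d := d) hdd hκ0 hκ hβ0 hβ1 hC1 hC1' hC2 hC2' hκC l
    have h1 := hA _ hV _ (shell_measurable hd hκ0 hκ hβ0 hβ1 l)
    have h2 := gibbs_shell hd hκ0 hκ hβ0 hβ1 hC1 hC1' hC2 hC2' hκC l hw
      (by rw [finB_eq, hl]; exact hcond)
    rw [abs_le] at h1
    linarith [h1.1]
  rw [e] at hlow
  have h3 := hlow.trans hup
  have e2 : (2 : ℝ) ^ L = (3 / 2) ^ L * (4 / 3) ^ L := by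
    rw [← mul_pow]; norm_num
  rw [e2] at h3
  have hpos : (0 : ℝ) < (4 / 3) ^ L := by positivity
  nlinarith

end

end Vale.Agent.Lib.P347
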