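import Mathlib

open MeasureTheory

namespace Vale.Agent.Lib.P347

section

variable {F F1 F2 : ℝ → ℝ} (h1 : ∀ s, HasDerivAt F (F1 s) s) (h2 : ∀ s, HasDerivAt F1 (F2 s) s)
  (hb2 : ∀ s, 0 ≤ s → 1 ≤ 2 * F1 s + 4 * s * F2 s)

include h1 in
lemma phi_hasDerivAt (r : ℝ) : HasDerivAt (fun r => F (r ^ 2)) (2 * r * F1 (r ^ 2)) r := by
  have hsq : HasDerivAt (fun r : ℝ => r ^ 2) (2 * r) r := by
    simpa using hasDerivAt_pow 2 r
  have := (h1 (r ^ 2)).comp r hsq
  refine this.congr_deriv ?_
  ring

include h2 in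
lemma phi1_hasDerivAt (r : ℝ) :
    HasDerivAt (fun r => 2 * r * F1 (r ^ 2)) (2 * F1 (r ^ 2) + 4 * r ^ 2 * F2 (r ^ 2)) r := by
  have hsq : HasDerivAt (fun r : ℝ => r ^ 2) (2 * r) r := by
    simpa using hasDerivAt_pow 2 r
  have hc : HasDerivAt (fun r => F1 (r ^ 2)) (F2 (r ^ 2) * (2 * r)) r := (h2 (r ^ 2)).comp r hsq
  have hl : HasDerivAt (fun r : ℝ => 2 * r) 2 r := by
    simpa using (hasDerivAt_id r).const_mul (2 : ℝ)
  have := hl.mul hc
  refine this.congr_deriv ?_
  ring

include h2 hb2 in
/-- strong monotonicity of `φ'` -/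
lemma phi1_mono {a b : ℝ} (hab : a ≤ b) :
    b - a ≤ 2 * b * F1 (b ^ 2) - 2 * a * F1 (a ^ 2) := by
  have := Convex.mul_sub_le_image_sub_of_le_deriv (D := Set.univ) convex_univ
    (f := fun r => 2 * r * F1 (r ^ 2))
    (fun r _ => (phi1_hasDerivAt h2 r).continuousAt.continuousWithinAt)
    (fun r _ => (phi1_hasDerivAt h2 r).differentiableAt.differentiableWithinAt) (C := 1)
    (fun r _ => by
      rw [(phi1_hasDerivAt h2 r).deriv]
      exact hb2 _ (by positivity)) a (Set.mem_univ _) b (Set.mem_univ _) hab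
  simpa using this

variable {m rs : ℝ} (hm : 0 ≤ m) (hrs : 0 < rs) (hroot : 2 * rs * F1 (rs ^ 2) = m / rs)

include h1 h2 hb2 hm hrs hroot

/-- `ψ(r) = φ(r) - m log r` grows at least quadratically to the right of its critical point -/
lemma psi_right {r w : ℝ} (hr : rs ≤ r) (hw : 0 ≤ w) :
    F (r ^ 2) - m * Real.log r + w ^ 2 / 2 ≤ F ((r + w) ^ 2) - m * Real.log (r + w) := by
  have hmono : MonotoneOn (fun t => F ((r + t) ^ 2) - m * Real.log (r + t) - t ^ 2 / 2)
      (Set.Icc 0 w) := by
    have hder : ∀ t, 0 ≤ t → HasDerivAt (fun t => F ((r + t) ^ 2) - m * Real.log (r + t) - t ^ 2 / 2)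
        (2 * (r + t) * F1 ((r + t) ^ 2) - m * (1 / (r + t)) - t) t := by
      intro t ht
      have hpos : 0 < r + t := by linarith
      have hs : HasDerivAt (fun t => r + t) 1 t := by simpa using (hasDerivAt_id t).const_add r
      have a1 : HasDerivAt (fun t => F ((r + t) ^ 2)) (2 * (r + t) * F1 ((r + t) ^ 2) * 1) t :=
        (phi_hasDerivAt h1 (r + t)).comp t hs
      have a2 : HasDerivAt (fun t => Real.log (r + t)) (1 / (r + t)) t := hs.log hpos.ne'
      have a3 : HasDerivAt (fun t : ℝ => t ^ 2 / 2) t t := by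
        have := (hasDerivAt_pow 2 t).div_const 2
        refine this.congr_deriv ?_
        simp
      have := (a1.sub (a2.const_mul m)).sub a3
      refine this.congr_deriv ?_
      ring
    apply monotoneOn_of_deriv_nonneg (convex_Icc 0 w)
    · intro t ht
      exact (hder t ht.1).continuousAt.continuousWithinAt
    · intro t ht
      rw [interior_Icc] at ht
      exact (hder t ht.1.le).differentiableAt.differentiableWithinAt
    · intro t ht
      rw [interior_Icc] at ht
      rw [(hder t ht.1.le).deriv]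
      have hpos : 0 < r + t := by linarith [ht.1]
      have k1 := phi1_mono h2 hb2 (a := rs) (b := r + t) (by linarith [ht.1])
      have k2 : m * (1 / (r + t)) ≤ m / rs := by
        rw [mul_one_div]
        exact div_le_div_of_nonneg_left hm hrs (by linarith [ht.1])
      linarith
  have := hmono (Set.left_mem_Icc.2 hw) (Set.right_mem_Icc.2 hw) hw
  simp only [add_zero] at this
  norm_num at this
  linarith

lemma psi_left {r w : ℝ} (hr : r ≤ rs) (hw : 0 ≤ w) (hwr : w < r) :
    F (r ^ 2) - m * Real.log r + w ^ 2 / 2 ≤ F ((r - w) ^ 2) - m * Real.log (r - w) := by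
  have hmono : MonotoneOn (fun t => F ((r - t) ^ 2) - m * Real.log (r - t) - t ^ 2 / 2)
      (Set.Icc 0 w) := by
    have hder : ∀ t, t ≤ w → HasDerivAt (fun t => F ((r - t) ^ 2) - m * Real.log (r - t) - t ^ 2 / 2)
        (- (2 * (r - t) * F1 ((r - t) ^ 2)) + m * (1 / (r - t)) - t) t := by
      intro t ht
      have hpos : 0 < r - t := by linarith
      have hs : HasDerivAt (fun t => r - t) (-1) t := by simpa using (hasDerivAt_id t).const_sub r
      have a1 : HasDerivAt (fun t => F ((r - t) ^ 2)) (2 * (r - t) * F1 ((r - t) ^ 2) * (-1)) t :=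
        (phi_hasDerivAt h1 (r - t)).comp t hs
      have a2 : HasDerivAt (fun t => Real.log (r - t)) (-1 / (r - t)) t := hs.log hpos.ne'
      have a3 : HasDerivAt (fun t : ℝ => t ^ 2 / 2) t t := by
        have := (hasDerivAt_pow 2 t).div_const 2
        refine this.congr_deriv ?_
        simp
      have := (a1.sub (a2.const_mul m)).sub a3
      refine this.congr_deriv ?_
      ring
    apply monotoneOn_of_deriv_nonneg (convex_Icc 0 w)
    · intro t ht
      exact (hder t ht.2).continuousAt.continuousWithinAt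
    · intro t ht
      rw [interior_Icc] at ht
      exact (hder t ht.2.le).differentiableAt.differentiableWithinAt
    · intro t ht
      rw [interior_Icc] at ht
      rw [(hder t ht.2.le).deriv]
      have hpos : 0 < r - t := by linarith [ht.2]
      have k1 := phi1_mono h2 hb2 (a := r - t) (b := rs) (by linarith [ht.1])
      have k2 : m / rs ≤ m * (1 / (r - t)) := by
        rw [mul_one_div]
        exact div_le_div_of_nonneg_left hm hpos (by linarith [ht.1])
      linarith
  have := hmono (Set.left_mem_Icc.2 hw) (Set.right_mem_Icc.2 hw) hw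
  simp only [sub_zero] at this
  norm_num at this
  linarith

end

/-- the radial density -/
noncomputable def rho (F : ℝ → ℝ) (n : ℕ) (r : ℝ) : ℝ :=
  if 0 < r then r ^ n * Real.exp (-F (r ^ 2)) else 0

lemma rho_nonneg (F : ℝ → ℝ) (n : ℕ) (r : ℝ) : 0 ≤ rho F n r := by
  unfold rho
  split_ifs with h
  · positivity
  · exact le_rfl

lemma rho_of_pos (F : ℝ → ℝ) (n : ℕ) {r : ℝ} (hr : 0 < r) :
    rho F n r = Real.exp (n * Real.log r - F (r ^ 2)) := by
  unfold rho
  rw [if_pos hr, sub_eq_add_neg, Real.exp_add, Real.exp_nat_mul, Real.exp_log hr]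

section

variable {F F1 F2 : ℝ → ℝ} (h1 : ∀ s, HasDerivAt F (F1 s) s) (h2 : ∀ s, HasDerivAt F1 (F2 s) s)
  (hb2 : ∀ s, 0 ≤ s → 1 ≤ 2 * F1 s + 4 * s * F2 s)
  {n : ℕ} {rs : ℝ} (hrs : 0 < rs) (hroot : 2 * rs * F1 (rs ^ 2) = n / rs)

include h1 h2 hb2 hrs hroot

lemma rho_right {r w : ℝ} (hr : rs ≤ r) (hw : 0 ≤ w) :
    rho F n (r + w) ≤ Real.exp (-(w ^ 2 / 2)) * rho F n r := by
  have hr0 : 0 < r := by linarith
  rw [rho_of_pos F n hr0, rho_of_pos F n (by linarith : 0 < r + w), ← Real.exp_add]
  apply Real.exp_le_exp.2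
  have := psi_right h1 h2 hb2 (Nat.cast_nonneg n) hrs hroot hr hw
  linarith

lemma rho_left {r w : ℝ} (hr : r ≤ rs) (hw : 0 ≤ w) :
    rho F n (r - w) ≤ Real.exp (-(w ^ 2 / 2)) * rho F n r := by
  by_cases hwr : w < r
  · have hr0 : 0 < r := by linarith
    rw [rho_of_pos F n hr0, rho_of_pos F n (by linarith : 0 < r - w), ← Real.exp_add]
    apply Real.exp_le_exp.2
    have := psi_left h1 h2 hb2 (Nat.cast_nonneg n) hrs hroot hr hw hwr
    linarith
  · have : rho F n (r - w) = 0 := by
      unfold rho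
      rw [if_neg (by linarith)]
    rw [this]
    exact mul_nonneg (Real.exp_pos _).le (rho_nonneg _ _ _)

variable (hint : Integrable (rho F n))
include hint

lemma tail_right {w : ℝ} (hw : 0 ≤ w) :
    ∫ r, (Set.Ici (rs + w)).indicator (rho F n) r ≤ Real.exp (-(w ^ 2 / 2)) * ∫ r, rho F n r := by
  rw [← integral_add_right_eq_self (fun r => (Set.Ici (rs + w)).indicator (rho F n) r) w,
    ← integral_const_mul]
  apply integral_mono
  · exact (hint.indicator measurableSet_Ici).comp_add_right w
  · exact hint.const_mul _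
  · intro r
    simp only [Set.indicator_apply, Set.mem_Ici]
    split_ifs with h
    · exact rho_right h1 h2 hb2 hrs hroot (by linarith) hw
    · exact mul_nonneg (Real.exp_pos _).le (rho_nonneg _ _ _)

lemma tail_left {w : ℝ} (hw : 0 ≤ w) :
    ∫ r, (Set.Iic (rs - w)).indicator (rho F n) r ≤ Real.exp (-(w ^ 2 / 2)) * ∫ r, rho F n r := by
  rw [← integral_add_right_eq_self (fun r => (Set.Iic (rs - w)).indicator (rho F n) r) (-w),
    ← integral_const_mul]
  apply integral_mono
  · exact (hint.indicator measurableSet_Iic).comp_add_right (-w)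
  · exact hint.const_mul _
  · intro r
    simp only [Set.indicator_apply, Set.mem_Iic]
    split_ifs with h
    · have := rho_left h1 h2 hb2 hrs hroot (r := r) (by linarith) hw
      simpa [sub_eq_add_neg] using this
    · exact mul_nonneg (Real.exp_pos _).le (rho_nonneg _ _ _)

end

section

variable {F F1 : ℝ → ℝ} (h1 : ∀ s, HasDerivAt F (F1 s) s) (h0 : F 0 = 0)
  (hb1 : ∀ s, 0 ≤ s → 1 ≤ 2 * F1 s)
include h1 h0 hb1

lemma F_lower {s : ℝ} (hs : 0 ≤ s) : s / 2 ≤ F s := by
  have := Convex.mul_sub_le_image_sub_of_le_deriv (D := Set.Ici 0) (convex_Ici 0) (f := F)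
    (fun r _ => (h1 r).continuousAt.continuousWithinAt)
    (fun r _ => (h1 r).differentiableAt.differentiableWithinAt) (C := 1 / 2)
    (fun r hr => by
      rw [interior_Ici] at hr
      rw [(h1 r).deriv]
      have := hb1 r (le_of_lt hr)
      linarith) 0 (Set.mem_Ici.2 le_rfl) s (Set.mem_Ici.2 hs) hs
  rw [h0] at this
  linarith

lemma rho_integrable (n : ℕ) : Integrable (rho F n) := by
  have hcont : Continuous F := continuous_iff_continuousAt.2 fun s => (h1 s).continuousAt
  have hdom : IntegrableOn (fun x : ℝ => x ^ (n : ℝ) * Real.exp (-(1 / 2) * x ^ 2)) (Set.Ioi 0) :=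
    integrableOn_rpow_mul_exp_neg_mul_sq (by norm_num) (by
      have : (0 : ℝ) ≤ n := Nat.cast_nonneg n
      linarith)
  have e : rho F n = (Set.Ioi 0).indicator (fun r => r ^ n * Real.exp (-F (r ^ 2))) := by
    funext r
    simp [rho, Set.indicator_apply]
  rw [e, integrable_indicator_iff measurableSet_Ioi]
  refine Integrable.mono' hdom ?_ ?_
  · apply Continuous.aestronglyMeasurable
    fun_prop
  · rw [ae_restrict_iff' measurableSet_Ioi]
    refine Filter.Eventually.of_forall fun r hr => ?_
    have hr0 : 0 < r := hr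
    rw [Real.norm_of_nonneg (by positivity), Real.rpow_natCast]
    apply mul_le_mul_of_nonneg_left _ (by positivity)
    apply Real.exp_le_exp.2
    have := F_lower h1 h0 hb1 (s := r ^ 2) (by positivity)
    linarith

lemma rho_integral_pos (n : ℕ) : 0 < ∫ r, rho F n r := by
  have hcont : Continuous F := continuous_iff_continuousAt.2 fun s => (h1 s).continuousAt
  rw [integral_pos_iff_support_of_nonneg (rho_nonneg F n) (rho_integrable h1 h0 hb1 n)]
  have : Set.Ioi (0 : ℝ) ⊆ Function.support (rho F n) := by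
    intro r hr
    have hr0 : 0 < r := hr
    simp only [Function.mem_support, rho, if_pos hr0]
    positivity
  exact lt_of_lt_of_le (by simp) (measure_mono this)

end

end Vale.Agent.Lib.P347
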