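import Vale.Agent.Lib.P347.Defs

open MeasureTheory
open scoped RealInnerProductSpace

namespace Vale.Agent.Lib.P347

variable {d : ℕ}

/-- the radial potential with profile `F` in the variable `s = ‖x‖²` -/
noncomputable def radial (F : ℝ → ℝ) (x : E d) : ℝ := F (‖x‖ ^ 2)

section calculus

variable {F F1 F2 : ℝ → ℝ}

lemma radial_hasFDerivAt (h1 : ∀ s, HasDerivAt F (F1 s) s) (x : E d) :
    HasFDerivAt (radial F) (F1 (‖x‖ ^ 2) • (2 • innerSL ℝ x)) x := by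
  have := (h1 (‖x‖ ^ 2)).comp_hasFDerivAt x (hasStrictFDerivAt_norm_sq x).hasFDerivAt
  exact this

lemma radial_fderiv (h1 : ∀ s, HasDerivAt F (F1 s) s) :
    fderiv ℝ (radial F : E d → ℝ) = fun x => F1 (‖x‖ ^ 2) • (2 • innerSL ℝ x) := by
  ext1 x
  exact (radial_hasFDerivAt h1 x).fderiv

lemma radial_gradient (h1 : ∀ s, HasDerivAt F (F1 s) s) (x : E d) :
    gradient (radial F) x = (2 * F1 (‖x‖ ^ 2)) • x := by
  apply HasGradientAt.gradient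
  rw [hasGradientAt_iff_hasFDerivAt]
  have e : (InnerProductSpace.toDual ℝ (E d)) ((2 * F1 (‖x‖ ^ 2)) • x)
      = F1 (‖x‖ ^ 2) • (2 • innerSL ℝ x) := by
    ext v
    simp
    ring
  rw [e]
  exact radial_hasFDerivAt h1 x

lemma radial_hess (h1 : ∀ s, HasDerivAt F (F1 s) s) (h2 : ∀ s, HasDerivAt F1 (F2 s) s)
    (x v : E d) :
    fderiv ℝ (fderiv ℝ (radial F : E d → ℝ)) x v v
      = 2 * F1 (‖x‖ ^ 2) * ‖v‖ ^ 2 + 4 * F2 (‖x‖ ^ 2) * ⟪x, v⟫ ^ 2 := by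
  rw [radial_fderiv h1]
  have hc : HasFDerivAt (fun y : E d => F1 (‖y‖ ^ 2)) (F2 (‖x‖ ^ 2) • (2 • innerSL ℝ x)) x :=
    (h2 (‖x‖ ^ 2)).comp_hasFDerivAt x (hasStrictFDerivAt_norm_sq x).hasFDerivAt
  have hf : HasFDerivAt (fun y : E d => (2 • innerSL ℝ y : E d →L[ℝ] ℝ))
      (2 • innerSL ℝ : E d →L[ℝ] E d →L[ℝ] ℝ) x :=
    (2 • innerSL ℝ : E d →L[ℝ] E d →L[ℝ] ℝ).hasFDerivAt
  have : HasFDerivAt (fun y : E d => F1 (‖y‖ ^ 2) • (2 • innerSL ℝ y : E d →L[ℝ] ℝ))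
    (F1 (‖x‖ ^ 2) • (2 • innerSL ℝ : E d →L[ℝ] E d →L[ℝ] ℝ)
      + (F2 (‖x‖ ^ 2) • (2 • innerSL ℝ x)).smulRight (2 • innerSL ℝ x)) x := hc.smul hf
  rw [this.fderiv]
  have hv : (innerSL ℝ v : E d →L[ℝ] ℝ) v = ‖v‖ ^ 2 := by
    rw [innerSL_apply_apply, real_inner_self_eq_norm_sq]
  have hx : (innerSL ℝ x : E d →L[ℝ] ℝ) v = ⟪x, v⟫ := by
    rw [innerSL_apply_apply]
  simp only [add_apply, smul_apply,
    ContinuousLinearMap.smulRight_apply, hv, hx, smul_eq_mul, nsmul_eq_mul]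
  push_cast
  ring

lemma radial_mem_class (hF : ContDiff ℝ 2 F) (h1 : ∀ s, HasDerivAt F (F1 s) s)
    (h2 : ∀ s, HasDerivAt F1 (F2 s) s) (h0 : F 0 = 0)
    (hb1 : ∀ s, 0 ≤ s → 1 ≤ 2 * F1 s ∧ 2 * F1 s ≤ 2)
    (hb2 : ∀ s, 0 ≤ s → 1 ≤ 2 * F1 s + 4 * s * F2 s ∧ 2 * F1 s + 4 * s * F2 s ≤ 2) :
    (radial F : E d → ℝ) ∈ PotentialClass d := by
  refine ⟨hF.comp (contDiff_norm_sq ℝ), by simp [radial, h0], by simp [radial_gradient h1], ?_⟩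
  intro x v
  have hq : hessQuad (radial F : E d → ℝ) x v = fderiv ℝ (fderiv ℝ (radial F : E d → ℝ)) x v v := by
    unfold hessQuad
    rw [iteratedFDeriv_two_apply]
    simp
  rw [hq, radial_hess h1 h2]
  have hs : 0 ≤ ‖x‖ ^ 2 := by positivity
  obtain ⟨a1, a2⟩ := hb1 _ hs
  obtain ⟨b1, b2⟩ := hb2 _ hs
  have ht0 : 0 ≤ ⟪x, v⟫ ^ 2 := by positivity
  have ht1 : ⟪x, v⟫ ^ 2 ≤ ‖x‖ ^ 2 * ‖v‖ ^ 2 := by
    have := abs_real_inner_le_norm x v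
    have h3 : |⟪x, v⟫| ^ 2 ≤ (‖x‖ * ‖v‖) ^ 2 := by gcongr
    rw [sq_abs] at h3
    nlinarith
  have hN : 0 ≤ ‖v‖ ^ 2 := by positivity
  set t := ⟪x, v⟫ ^ 2
  set N := ‖v‖ ^ 2
  set s := ‖x‖ ^ 2
  rcases le_total 0 (F2 s) with h | h
  · constructor
    · nlinarith [mul_nonneg h ht0]
    · nlinarith [mul_le_mul_of_nonneg_left ht1 h]
  · constructor
    · nlinarith [mul_le_mul_of_nonpos_left ht1 h]
    · nlinarith [mul_nonneg_of_nonpos_of_nonpos h (neg_nonpos.2 ht0)]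

end calculus

end Vale.Agent.Lib.P347
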