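import Vale.Agent.Lib.P347.Conc1D
import Vale.Agent.Lib.P347.Radial

open MeasureTheory

namespace Vale.Agent.Lib.P347

variable {d : ℕ}

section

variable {F : ℝ → ℝ} (hd : 2 ≤ d) (hint : Integrable (rho F (d - 1)))

lemma indicator_rho_eq (F : ℝ → ℝ) (n : ℕ) (S : Set ℝ) :
    (Set.Ioi (0 : ℝ)).indicator (fun y => y ^ n • S.indicator (fun r => Real.exp (-F (r ^ 2))) y)
      = S.indicator (rho F n) := by
  funext y
  by_cases h0 : 0 < y <;> by_cases hS : y ∈ S <;> simp [Set.indicator_apply, rho, h0, hS]

include hd in
lemma nontrivial_E : Nontrivial (E d) := by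
  have : Nonempty (Fin d) := ⟨⟨0, by omega⟩⟩
  infer_instance

include hd hint in
lemma integrable_radial_indicator {S : Set ℝ} (hS : MeasurableSet S) :
    Integrable (fun x : E d => S.indicator (fun r => Real.exp (-F (r ^ 2))) ‖x‖) := by
  have := nontrivial_E hd
  rw [integrable_fun_norm_addHaar (volume : Measure (E d)), finrank_euclideanSpace_fin,
    ← integrable_indicator_iff measurableSet_Ioi, indicator_rho_eq]
  exact hint.indicator hS

include hd in
lemma integral_radial_indicator (S : Set ℝ) :
    ∫ x : E d, S.indicator (fun r => Real.exp (-F (r ^ 2))) ‖x‖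
      = (d * (volume : Measure (E d)).real (Metric.ball 0 1)) * ∫ r, S.indicator (rho F (d - 1)) r := by
  have := nontrivial_E hd
  rw [integral_fun_norm_addHaar (volume : Measure (E d)), finrank_euclideanSpace_fin,
    ← integral_indicator measurableSet_Ioi, indicator_rho_eq]
  simp [mul_assoc]

include hd hint in
lemma withDensity_radial {S : Set ℝ} (hS : MeasurableSet S) :
    (volume.withDensity fun x : E d => ENNReal.ofReal (Real.exp (-radial F x))) {x | ‖x‖ ∈ S}
      = ENNReal.ofReal ((d * (volume : Measure (E d)).real (Metric.ball 0 1))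
          * ∫ r, S.indicator (rho F (d - 1)) r) := by
  have hmeas : MeasurableSet {x : E d | ‖x‖ ∈ S} := measurable_norm hS
  rw [withDensity_apply _ hmeas, ← integral_radial_indicator hd,
    ofReal_integral_eq_lintegral_ofReal (integrable_radial_indicator hd hint hS)
      (Filter.Eventually.of_forall fun x => Set.indicator_nonneg (fun _ _ => (Real.exp_pos _).le) _),
    ← lintegral_indicator hmeas]
  congr 1
  funext x
  by_cases hx : ‖x‖ ∈ S
  · simp [Set.indicator_apply, hx, radial]
  · simp [Set.indicator_apply, hx]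

lemma cd_pos (hd : 2 ≤ d) : 0 < (d * (volume : Measure (E d)).real (Metric.ball 0 1)) := by
  have h1 : (0 : ℝ) < d := by exact_mod_cast (by omega : 0 < d)
  have h2 : 0 < (volume : Measure (E d)).real (Metric.ball 0 1) := by
    rw [measureReal_def]
    apply ENNReal.toReal_pos
    · exact (Metric.isOpen_ball.measure_pos _ ⟨0, by simp⟩).ne'
    · exact measure_ball_lt_top.ne
  positivity

variable (hpos : 0 < ∫ r, rho F (d - 1) r)

include hd hint in
lemma partition_eq :
    ∫⁻ x : E d, ENNReal.ofReal (Real.exp (-radial F x))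
      = ENNReal.ofReal ((d * (volume : Measure (E d)).real (Metric.ball 0 1))
          * ∫ r, rho F (d - 1) r) := by
  have := withDensity_radial (F := F) hd hint MeasurableSet.univ
  simp only [Set.mem_univ, Set.ofPred_true, Set.indicator_univ] at this
  rw [← this, withDensity_apply _ MeasurableSet.univ, Measure.restrict_univ]

include hd hint hpos in
lemma gibbs_radial_apply {S : Set ℝ} (hS : MeasurableSet S) :
    gibbs (radial F : E d → ℝ) {x | ‖x‖ ∈ S}
      = ENNReal.ofReal ((∫ r, S.indicator (rho F (d - 1)) r) / ∫ r, rho F (d - 1) r) := by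
  unfold gibbs
  rw [Measure.smul_apply, partition_eq hd hint, withDensity_radial hd hint hS, smul_eq_mul]
  have hc := cd_pos hd
  rw [← ENNReal.ofReal_inv_of_pos (by positivity), ← ENNReal.ofReal_mul (by positivity)]
  congr 1
  set c := (d * (volume : Measure (E d)).real (Metric.ball 0 1)) with hcdef
  have hc' : c ≠ 0 := hc.ne'
  have hp' := hpos.ne'
  field_simp

include hd hint hpos in
lemma gibbs_radial_isProb : IsProbabilityMeasure (gibbs (radial F : E d → ℝ)) := by
  constructor
  have := gibbs_radial_apply hd hint hpos MeasurableSet.univ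
  simp only [Set.mem_univ, Set.ofPred_true, Set.indicator_univ] at this
  rw [this, div_self hpos.ne']
  simp

include hd hint hpos in
lemma gibbs_radial_le {S : Set ℝ} (hS : MeasurableSet S) {c : ℝ}
    (h : ∫ r, S.indicator (rho F (d - 1)) r ≤ c * ∫ r, rho F (d - 1) r) :
    gibbs (radial F : E d → ℝ) {x | ‖x‖ ∈ S} ≤ ENNReal.ofReal c := by
  rw [gibbs_radial_apply hd hint hpos hS]
  apply ENNReal.ofReal_le_ofReal
  rw [div_le_iff₀ hpos]
  exact h

end

end Vale.Agent.Lib.P347
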