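import Vale.Agent.Lib.P347.FamilyCalc

namespace Vale.Agent.Lib.P347

/-- sum over all bit lists of length `n` -/
def sumOver {α : Type*} [Add α] : ℕ → (List Bool → α) → α
  | 0, f => f []
  | n + 1, f => sumOver n (fun l => f (true :: l)) + sumOver n (fun l => f (false :: l))

variable {d : ℕ}

/-- run `n` more steps from step index `k` and record `h` -/
noncomputable def Sampler.run (A : Sampler d) (O : E d → ℝ × E d) (ω : A.Ω) :
    ℕ → ℕ → (ℕ → ℝ × E d) → (ℕ → ℝ × E d)
  | 0, _, h => h
  | n + 1, k, h => A.run O ω n (k + 1) (Function.update h k (O (A.query k ω h)))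

lemma Sampler.record_add (A : Sampler d) (O : E d → ℝ × E d) (ω : A.Ω) (n : ℕ) :
    ∀ k, A.record O ω (k + n) = A.run O ω n k (A.record O ω k) := by
  induction n with
  | zero => intro k; rfl
  | succ n ih =>
    intro k
    have : k + (n + 1) = (k + 1) + n := by ring
    rw [this, ih (k + 1)]
    rfl

lemma Sampler.record_eq_run (A : Sampler d) (O : E d → ℝ × E d) (ω : A.Ω) (q : ℕ) :
    A.record O ω q = A.run O ω q 0 (fun _ => 0) := by
  have := A.record_add O ω q 0
  rw [zero_add] at this
  exact this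

/-- the oracle of a radial potential with profile `a0` and derivative `a1` -/
noncomputable def radO (a0 a1 : ℝ → ℝ) (x : E d) : ℝ × E d :=
  (a0 (‖x‖ ^ 2), (2 * a1 (‖x‖ ^ 2)) • x)

section

variable (dd κ : ℝ)

/-- success indicator -/
noncomputable def succI (l : List Bool) (D β : ℝ) (X : E d) : ℝ :=
  if |finD dd κ l D β * ‖X‖ ^ 2 - (dd - 1)| < 2 * finB κ l β then 1 else 0

/-- the success indicator of the deterministic algorithm `(A, ω)` started from `(k, h)` with `n`
remaining queries against the potential with bits `l` -/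
noncomputable def T (A : Sampler d) (ω : A.Ω) (n : ℕ) (a0 a1 : ℝ → ℝ) (D β : ℝ) (k : ℕ)
    (h : ℕ → ℝ × E d) (l : List Bool) : ℝ :=
  succI dd κ l D β (A.output ω (A.run (radO (fun s => a0 s + pert dd κ l D β s)
    (fun s => a1 s + pert1 dd κ l D β s)) ω n k h))

end

section

variable {dd κ : ℝ}

lemma succI_le_one (l : List Bool) (D β : ℝ) (X : E d) : succI dd κ l D β X ≤ 1 := by
  unfold succI; split_ifs <;> norm_num

lemma succI_nonneg (l : List Bool) (D β : ℝ) (X : E d) : 0 ≤ succI dd κ l D β X := by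
  unfold succI; split_ifs <;> norm_num

lemma T_cons (A : Sampler d) (ω : A.Ω) (n : ℕ) (a0 a1 : ℝ → ℝ) (D β : ℝ) (k : ℕ)
    (h : ℕ → ℝ × E d) (b : Bool) (l : List Bool) :
    T dd κ A ω n a0 a1 D β k h (b :: l)
      = T dd κ A ω n (fun s => a0 s + sgn b * (eps dd κ β * β / D) * g (arg dd D β s))
          (fun s => a1 s + sgn b * eps dd κ β * g1 (arg dd D β s))
          (nextD dd κ D β b) (nextB κ β) k h l := by
  unfold T
  have e0 : (fun s => a0 s + pert dd κ (b :: l) D β s)
      = fun s => a0 s + sgn b * (eps dd κ β * β / D) * g (arg dd D β s)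
          + pert dd κ l (nextD dd κ D β b) (nextB κ β) s := by
    funext s; simp only [pert]; ring
  have e1 : (fun s => a1 s + pert1 dd κ (b :: l) D β s)
      = fun s => a1 s + sgn b * eps dd κ β * g1 (arg dd D β s)
          + pert1 dd κ l (nextD dd κ D β b) (nextB κ β) s := by
    funext s; simp only [pert1]; ring
  rw [e0, e1]
  rfl

lemma sumOver_le_of_le {c : ℝ} (n : ℕ) :
    ∀ {f : List Bool → ℝ}, (∀ l, f l ≤ c) → sumOver n f ≤ 2 ^ n * c := by
  induction n with
  | zero => intro f hf; simpa [sumOver] using hf []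
  | succ n ih =>
    intro f hf
    have h1 := ih (f := fun l => f (true :: l)) (fun l => hf _)
    have h2 := ih (f := fun l => f (false :: l)) (fun l => hf _)
    simp only [sumOver]
    rw [pow_succ]
    linarith

lemma sumOver_zero (n : ℕ) : sumOver n (fun _ => (0 : ℝ)) = 0 := by
  induction n with
  | zero => rfl
  | succ n ih => simp [sumOver, ih]

variable (hd : 2 ≤ dd) (hκ0 : 0 < κ) (hκ : κ ≤ 1 / 4)
include hd hκ0 hκ

/-- one of the two children does not see the point `s` -/
lemma exists_blind_child {D β : ℝ} (hg : Good dd κ D β) (s : ℝ) :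
    ∃ b : Bool, 2 * nextB κ β ≤ |nextD dd κ D β b * s - (dd - 1)| := by
  by_contra hcon
  push Not at hcon
  exact hg.sibling hd hκ0 hκ (hcon true) (hcon false)

lemma T_blind_zero (A : Sampler d) (ω : A.Ω) (a0 a1 : ℝ → ℝ) {D β : ℝ} (hg : Good dd κ D β)
    (k : ℕ) (h : ℕ → ℝ × E d)
    (hb : 2 * β ≤ |D * ‖A.output ω h‖ ^ 2 - (dd - 1)|) (l : List Bool) :
    T dd κ A ω 0 a0 a1 D β k h l = 0 := by
  have e : T dd κ A ω 0 a0 a1 D β k h l = succI dd κ l D β (A.output ω h) := rfl
  rw [e]
  unfold succI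
  rw [if_neg]
  intro hcon
  have := final_subset hd hκ0 hκ l hg hcon
  linarith

lemma T_blind_succ (A : Sampler d) (ω : A.Ω) (n : ℕ) (a0 a1 : ℝ → ℝ) {D β : ℝ}
    (hg : Good dd κ D β) (k : ℕ) (h : ℕ → ℝ × E d)
    (hb : 2 * β ≤ |D * ‖A.query k ω h‖ ^ 2 - (dd - 1)|) (l : List Bool) :
    T dd κ A ω (n + 1) a0 a1 D β k h l
      = T dd κ A ω n a0 a1 D β (k + 1) (Function.update h k (radO a0 a1 (A.query k ω h))) l := by
  unfold T
  simp only [Sampler.run]
  obtain ⟨v0, v1, _⟩ := pert_vanish hd hκ0 hκ l hg hb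
  have : radO (fun s => a0 s + pert dd κ l D β s) (fun s => a1 s + pert1 dd κ l D β s)
      (A.query k ω h) = radO a0 a1 (A.query k ω h) := by
    simp [radO, v0, v1]
  rw [this]

/-- **The counting lemma.** -/
theorem counting (A : Sampler d) (ω : A.Ω) (m : ℕ) : ∀ (n : ℕ) (a0 a1 : ℝ → ℝ) {D β : ℝ},
    Good dd κ D β → ∀ (k : ℕ) (h : ℕ → ℝ × E d),
    sumOver m (T dd κ A ω n a0 a1 D β k h) ≤ 3 ^ n * (4 / 3) ^ m := by
  induction m with
  | zero =>
    intro n a0 a1 D β _ k h
    simp only [sumOver, pow_zero, mul_one]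
    exact (succI_le_one _ _ _ _).trans (one_le_pow₀ (by norm_num))
  | succ m ih =>
    intro n a0 a1 D β hg k h
    simp only [sumOver, T_cons]
    cases n with
    | zero =>
      obtain ⟨b, hb⟩ := exists_blind_child hd hκ0 hκ hg (‖A.output ω h‖ ^ 2)
      have hz : ∀ a0 a1, sumOver m (T dd κ A ω 0 a0 a1 (nextD dd κ D β b) (nextB κ β) k h) = 0 := by
        intro a0 a1
        have : T dd κ A ω 0 a0 a1 (nextD dd κ D β b) (nextB κ β) k h = fun _ => 0 := by
          funext l
          exact T_blind_zero hd hκ0 hκ A ω a0 a1 (hg.next hd hκ0 hκ b) k h hb l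
        rw [this, sumOver_zero]
      have hpos : (0 : ℝ) ≤ (4 / 3) ^ m := by positivity
      cases b with
      | true =>
        rw [hz]
        have := ih 0 (fun s => a0 s + sgn false * (eps dd κ β * β / D) * g (arg dd D β s))
          (fun s => a1 s + sgn false * eps dd κ β * g1 (arg dd D β s))
          (hg.next hd hκ0 hκ false) k h
        rw [pow_succ]
        simp only [pow_zero, one_mul] at this ⊢
        linarith
      | false =>
        rw [hz]
        have := ih 0 (fun s => a0 s + sgn true * (eps dd κ β * β / D) * g (arg dd D β s))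
          (fun s => a1 s + sgn true * eps dd κ β * g1 (arg dd D β s))
          (hg.next hd hκ0 hκ true) k h
        rw [pow_succ]
        simp only [pow_zero, one_mul] at this ⊢
        linarith
    | succ n =>
      obtain ⟨b, hb⟩ := exists_blind_child hd hκ0 hκ hg (‖A.query k ω h‖ ^ 2)
      have hz : ∀ a0 a1, sumOver m (T dd κ A ω (n + 1) a0 a1 (nextD dd κ D β b) (nextB κ β) k h)
          ≤ 3 ^ n * (4 / 3) ^ m := by
        intro a0 a1
        have : T dd κ A ω (n + 1) a0 a1 (nextD dd κ D β b) (nextB κ β) k h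
            = T dd κ A ω n a0 a1 (nextD dd κ D β b) (nextB κ β) (k + 1)
              (Function.update h k (radO a0 a1 (A.query k ω h))) := by
          funext l
          exact T_blind_succ hd hκ0 hκ A ω n a0 a1 (hg.next hd hκ0 hκ b) k h hb l
        rw [this]
        exact ih n a0 a1 (hg.next hd hκ0 hκ b) _ _
      have e : (3 : ℝ) ^ (n + 1) * (4 / 3) ^ (m + 1)
          = 3 ^ n * (4 / 3) ^ m + 3 ^ (n + 1) * (4 / 3) ^ m := by
        rw [pow_succ, pow_succ]; ring
      rw [e]
      cases b with
      | true =>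
        exact add_le_add (hz _ _) (ih (n + 1) _ _ (hg.next hd hκ0 hκ false) k h)
      | false =>
        rw [add_comm]
        exact add_le_add (hz _ _) (ih (n + 1) _ _ (hg.next hd hκ0 hκ true) k h)

end

end Vale.Agent.Lib.P347
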