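import Mathlib

/-!
# The first-order oracle model for well-conditioned log-concave sampling
-/

open MeasureTheory

namespace Vale.Agent.Lib.P347

/-- `ℝ^d` with the Euclidean norm. -/
abbrev E (d : ℕ) : Type := EuclideanSpace ℝ (Fin d)

/-- The Hessian quadratic form `∇²V(x)(v, v)`, the second Frechet derivative of `V` at `x`
evaluated at `(v, v)`. -/
noncomputable def hessQuad {d : ℕ} (V : E d → ℝ) (x v : E d) : ℝ :=
  iteratedFDeriv ℝ 2 V x ![v, v]

/-- The class `𝒱_d`: `V ∈ C²(ℝ^d)`, `V(0) = 0`, `∇V(0) = 0`, `I ≼ ∇²V(x) ≼ 2 I` for every `x`. -/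
def PotentialClass (d : ℕ) : Set (E d → ℝ) :=
  {V | ContDiff ℝ 2 V ∧ V 0 = 0 ∧ gradient V 0 = 0 ∧
    ∀ x v : E d, ‖v‖ ^ 2 ≤ hessQuad V x v ∧ hessQuad V x v ≤ 2 * ‖v‖ ^ 2}

/-- The Gibbs law `π_V(dx) = Z_V⁻¹ exp(-V(x)) dx`. -/
noncomputable def gibbs {d : ℕ} (V : E d → ℝ) : Measure (E d) :=
  (∫⁻ x, ENNReal.ofReal (Real.exp (-V x)))⁻¹ •
    (volume.withDensity fun x => ENNReal.ofReal (Real.exp (-V x)))

/-- The exact first-order oracle: a query at `x` returns `(V(x), ∇V(x))`. -/
noncomputable def oracle {d : ℕ} (V : E d → ℝ) (x : E d) : ℝ × E d := (V x, gradient V x)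

/-- A randomized adaptive algorithm.  `Ω` with the probability measure `P` carries all the internal
randomness.  The `k`-th query point is a measurable function of the randomness and of the record
of the answers so far (a sequence of answers, the entries not yet filled being `0`), and so is the
output. -/
structure Sampler (d : ℕ) where
  Ω : Type
  [mΩ : MeasurableSpace Ω]
  P : Measure Ω
  [isProb : IsProbabilityMeasure P]
  query : ℕ → Ω → (ℕ → ℝ × E d) → E d
  query_meas : ∀ k, Measurable fun p : Ω × (ℕ → ℝ × E d) => query k p.1 p.2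
  output : Ω → (ℕ → ℝ × E d) → E d
  output_meas : Measurable fun p : Ω × (ℕ → ℝ × E d) => output p.1 p.2

attribute [instance] Sampler.mΩ Sampler.isProb

/-- The record of answers after `k` adaptive queries to an oracle `O`. -/
noncomputable def Sampler.record {d : ℕ} (A : Sampler d) (O : E d → ℝ × E d) (ω : A.Ω) :
    ℕ → (ℕ → ℝ × E d)
  | 0 => fun _ => 0
  | k + 1 => Function.update (A.record O ω k) k (O (A.query k ω (A.record O ω k)))

/-- The output of the algorithm after `q` queries to the first-order oracle of `V`. -/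
noncomputable def Sampler.sample {d : ℕ} (A : Sampler d) (q : ℕ) (V : E d → ℝ) (ω : A.Ω) : E d :=
  A.output ω (A.record (oracle V) ω q)

/-- With `q` queries the algorithm `A` outputs, for every `V ∈ 𝒱_d`, a point whose law is within
total variation distance `δ` of `π_V`. -/
def Sampler.Achieves {d : ℕ} (A : Sampler d) (q : ℕ) (δ : ℝ) : Prop :=
  ∀ V ∈ PotentialClass d, ∀ B : Set (E d), MeasurableSet B →
    |(A.P.map (A.sample q V)).real B - (gibbs V).real B| ≤ δ

end Vale.Agent.Lib.P347
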