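import Vale.Agent.Lib.P347.Profile

open scoped ContDiff

namespace Vale.Agent.Lib.P347

/-- sign of a bit -/
def sgn (b : Bool) : ℝ := if b then 1 else -1

lemma sgn_abs (b : Bool) : |sgn b| = 1 := by cases b <;> simp [sgn]
lemma sgn_sq (b : Bool) : sgn b * sgn b = 1 := by cases b <;> simp [sgn]

section

variable (dd κ : ℝ)

/-- slope perturbation at scale `β` -/
noncomputable def eps (β : ℝ) : ℝ := κ * β / dd
noncomputable def nextD (D β : ℝ) (b : Bool) : ℝ := D + 2 * sgn b * eps dd κ β
noncomputable def nextB (β : ℝ) : ℝ := κ / 8 * β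
noncomputable def arg (D β s : ℝ) : ℝ := (D * s - (dd - 1)) / β

/-- the hierarchical perturbation, in the variable `s = ‖x‖²` -/
noncomputable def pert : List Bool → ℝ → ℝ → ℝ → ℝ
  | [], _, _, _ => 0
  | b :: l, D, β, s => sgn b * (eps dd κ β * β / D) * g (arg dd D β s)
      + pert l (nextD dd κ D β b) (nextB κ β) s

noncomputable def pert1 : List Bool → ℝ → ℝ → ℝ → ℝ
  | [], _, _, _ => 0
  | b :: l, D, β, s => sgn b * eps dd κ β * g1 (arg dd D β s)
      + pert1 l (nextD dd κ D β b) (nextB κ β) s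

noncomputable def pert2 : List Bool → ℝ → ℝ → ℝ → ℝ
  | [], _, _, _ => 0
  | b :: l, D, β, s => sgn b * (eps dd κ β * (D / β)) * g2 (arg dd D β s)
      + pert2 l (nextD dd κ D β b) (nextB κ β) s

/-- final slope and scale -/
noncomputable def finD : List Bool → ℝ → ℝ → ℝ
  | [], D, _ => D
  | b :: l, D, β => finD l (nextD dd κ D β b) (nextB κ β)

noncomputable def finB : List Bool → ℝ → ℝ
  | [], β => β
  | _ :: l, β => finB l (nextB κ β)

/-- invariant -/
def Good (D β : ℝ) : Prop := 0 < β ∧ β ≤ dd / 8 ∧ |D - 3 / 2| + 4 * κ * β / dd ≤ 1 / 4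

end

section

variable {dd κ : ℝ} (hd : 2 ≤ dd) (hκ0 : 0 < κ) (hκ : κ ≤ 1 / 4)

include hd hκ0 hκ

lemma Good.next {D β : ℝ} (h : Good dd κ D β) (b : Bool) :
    Good dd κ (nextD dd κ D β b) (nextB κ β) := by
  obtain ⟨h1, h2, h3⟩ := h
  have hdd : 0 < dd := by linarith
  refine ⟨by unfold nextB; positivity, ?_, ?_⟩
  · unfold nextB
    nlinarith
  · unfold nextD nextB eps
    have e1 : |D + 2 * sgn b * (κ * β / dd) - 3 / 2| ≤ |D - 3 / 2| + 2 * (κ * β / dd) := by
      have : D + 2 * sgn b * (κ * β / dd) - 3 / 2 = (D - 3 / 2) + 2 * sgn b * (κ * β / dd) := by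
        ring
      rw [this]
      refine (abs_add_le _ _).trans ?_
      have : |2 * sgn b * (κ * β / dd)| = 2 * (κ * β / dd) := by
        rw [abs_mul, abs_mul, sgn_abs, abs_of_pos (by positivity : 0 < κ * β / dd)]
        norm_num
      rw [this]
    have e2 : 4 * κ * (κ / 8 * β) / dd ≤ 2 * (κ * β / dd) := by
      have : 4 * κ * (κ / 8 * β) / dd = (κ / 2) * (κ * β / dd) := by ring
      rw [this]
      have : 0 < κ * β / dd := by positivity
      nlinarith
    have e3 : 4 * κ * β / dd = 4 * (κ * β / dd) := by ring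
    linarith

omit hκ in
lemma Good.D_bounds {D β : ℝ} (h : Good dd κ D β) : 5 / 4 ≤ D ∧ D ≤ 7 / 4 := by
  obtain ⟨h1, h2, h3⟩ := h
  have hdd : 0 < dd := by linarith
  have : 0 ≤ 4 * κ * β / dd := by positivity
  have h4 : |D - 3 / 2| ≤ 1 / 4 := by linarith
  rw [abs_le] at h4
  constructor <;> linarith [h4.1, h4.2]

omit hκ in
lemma Good.supp_bounds {D β s : ℝ} (h : Good dd κ D β) (hs : |D * s - (dd - 1)| ≤ 2 * β) :
    dd / 7 ≤ s ∧ s < dd := by
  obtain ⟨hD1, hD2⟩ := h.D_bounds hd hκ0
  obtain ⟨h1, h2, h3⟩ := h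
  rw [abs_le] at hs
  have hs0 : 0 < s := by
    by_contra hneg
    push Not at hneg
    nlinarith [hs.1]
  constructor
  · nlinarith [hs.1, mul_nonneg (sub_nonneg.2 hD2) hs0.le]
  · nlinarith [hs.2, mul_nonneg (sub_nonneg.2 hD1) hs0.le]

lemma Good.nesting {D β s : ℝ} (h : Good dd κ D β) (b : Bool)
    (hs : |nextD dd κ D β b * s - (dd - 1)| ≤ 2 * nextB κ β) :
    |D * s - (dd - 1)| ≤ β := by
  have hn := h.next hd hκ0 hκ b
  obtain ⟨s1, s2⟩ := hn.supp_bounds hd hκ0 hs
  obtain ⟨h1, h2, h3⟩ := h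
  have hdd : 0 < dd := by linarith
  have hs0 : 0 < s := by
    have : 0 < dd / 7 := by positivity
    linarith
  have e : D * s - (dd - 1) = (nextD dd κ D β b * s - (dd - 1)) - 2 * sgn b * eps dd κ β * s := by
    unfold nextD; ring
  rw [e]
  refine (abs_sub _ _).trans ?_
  have e2 : |2 * sgn b * eps dd κ β * s| = 2 * eps dd κ β * s := by
    have : 0 < eps dd κ β := by unfold eps; positivity
    rw [abs_mul, abs_mul, abs_mul, sgn_abs, abs_of_pos this, abs_of_pos hs0]
    norm_num
  rw [e2]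
  have e3 : eps dd κ β * s ≤ κ * β := by
    unfold eps
    rw [div_mul_eq_mul_div, div_le_iff₀ hdd]
    have : 0 < κ * β := by positivity
    nlinarith
  unfold nextB at hs
  nlinarith

lemma Good.sibling {D β s : ℝ} (h : Good dd κ D β)
    (h1 : |nextD dd κ D β true * s - (dd - 1)| < 2 * nextB κ β)
    (h2 : |nextD dd κ D β false * s - (dd - 1)| < 2 * nextB κ β) : False := by
  have hn := h.next hd hκ0 hκ true
  obtain ⟨s1, s2⟩ := hn.supp_bounds hd hκ0 h1.le
  obtain ⟨g1, g2, g3⟩ := h
  have hdd : 0 < dd := by linarith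
  rw [abs_lt] at h1 h2
  unfold nextD sgn at h1 h2
  simp only [if_true, Bool.false_eq_true, if_false] at h1 h2
  have e3 : κ * β / 7 ≤ eps dd κ β * s := by
    unfold eps
    rw [div_mul_eq_mul_div, le_div_iff₀ hdd]
    have : 0 < κ * β := by positivity
    nlinarith
  unfold nextB at h1 h2
  nlinarith [h1.2, h2.1]

lemma pert_vanish (l : List Bool) : ∀ {D β s : ℝ}, Good dd κ D β → 2 * β ≤ |D * s - (dd - 1)| →
    pert dd κ l D β s = 0 ∧ pert1 dd κ l D β s = 0 ∧ pert2 dd κ l D β s = 0 := by
  induction l with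
  | nil => intro D β s _ _; simp [pert, pert1, pert2]
  | cons b l ih =>
    intro D β s h hs
    have hβ := h.1
    have harg : 2 ≤ |arg dd D β s| := by
      unfold arg
      rw [abs_div, abs_of_pos hβ, le_div_iff₀ hβ]
      exact hs
    have hnext : 2 * nextB κ β ≤ |nextD dd κ D β b * s - (dd - 1)| := by
      by_contra hcon
      push Not at hcon
      have := h.nesting hd hκ0 hκ b hcon.le
      linarith
    obtain ⟨i0, i1, i2⟩ := ih (h.next hd hκ0 hκ b) hnext
    simp [pert, pert1, pert2, g_of_le_abs harg, g1_of_le_abs harg, g2_of_le_abs harg, i0, i1, i2]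

lemma final_subset (l : List Bool) : ∀ {D β s : ℝ}, Good dd κ D β →
    |finD dd κ l D β * s - (dd - 1)| < 2 * finB κ l β → |D * s - (dd - 1)| < 2 * β := by
  induction l with
  | nil => intro D β s _ h; simpa [finD, finB] using h
  | cons b l ih =>
    intro D β s h hs
    have := ih (h.next hd hκ0 hκ b) (by simpa [finD, finB] using hs)
    have h2 := h.nesting hd hκ0 hκ b this.le
    linarith [h.1]

lemma pert1_plateau (l : List Bool) : ∀ {D β s : ℝ}, Good dd κ D β →
    |finD dd κ l D β * s - (dd - 1)| < 2 * finB κ l β →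
    pert1 dd κ l D β s = (finD dd κ l D β - D) / 2 := by
  induction l with
  | nil => intro D β s _ _; simp [pert1, finD]
  | cons b l ih =>
    intro D β s h hs
    have hs' : |finD dd κ l (nextD dd κ D β b) (nextB κ β) * s - (dd - 1)|
        < 2 * finB κ l (nextB κ β) := by simpa [finD, finB] using hs
    have h1 := final_subset hd hκ0 hκ l (h.next hd hκ0 hκ b) hs'
    have h2 := h.nesting hd hκ0 hκ b h1.le
    have harg : |arg dd D β s| ≤ 1 := by
      unfold arg
      rw [abs_div, abs_of_pos h.1, div_le_iff₀ h.1]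
      linarith
    rw [pert1, g1_of_abs_le harg, ih (h.next hd hκ0 hκ b) hs', finD]
    unfold nextD
    ring

lemma pert1_bound {C1 : ℝ} (hC : ∀ y, |g1 y| ≤ C1) (hC1 : 1 ≤ C1) (l : List Bool) :
    ∀ {D β : ℝ} (s : ℝ), Good dd κ D β → |pert1 dd κ l D β s| ≤ 2 * C1 * (κ * β / dd) := by
  induction l with
  | nil =>
    intro D β s h
    have hdd : 0 < dd := by linarith
    have := h.1
    simp only [pert1, abs_zero]
    positivity
  | cons b l ih =>
    intro D β s h
    have hdd : 0 < dd := by linarith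
    have hβ := h.1
    have i := ih s (h.next hd hκ0 hκ b)
    rw [pert1]
    refine (abs_add_le _ _).trans ?_
    have e1 : |sgn b * eps dd κ β * g1 (arg dd D β s)| ≤ C1 * (κ * β / dd) := by
      rw [abs_mul, abs_mul, sgn_abs, one_mul]
      unfold eps
      rw [abs_of_pos (by positivity : 0 < κ * β / dd), mul_comm]
      exact mul_le_mul_of_nonneg_right (hC _) (by positivity)
    have e2 : 2 * C1 * (κ * nextB κ β / dd) ≤ C1 * (κ * β / dd) := by
      unfold nextB
      have : 2 * C1 * (κ * (κ / 8 * β) / dd) = (κ / 4) * (C1 * (κ * β / dd)) := by ring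
      rw [this]
      have : 0 < C1 * (κ * β / dd) := by positivity
      nlinarith
    linarith

lemma pert2_bound {C2 : ℝ} (hC : ∀ y, |g2 y| ≤ C2) (hC2 : 1 ≤ C2) (l : List Bool) :
    ∀ {D β : ℝ} (s : ℝ), Good dd κ D β → |pert2 dd κ l D β s| ≤ 7 / 4 * (κ / dd) * C2 := by
  induction l with
  | nil =>
    intro D β s h
    have hdd : 0 < dd := by linarith
    simp only [pert2, abs_zero]
    positivity
  | cons b l ih =>
    intro D β s h
    have hdd : 0 < dd := by linarith
    have hβ := h.1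
    obtain ⟨hD1, hD2⟩ := h.D_bounds hd hκ0
    rw [pert2]
    by_cases harg : |arg dd D β s| ≤ 1
    · rw [g2_of_abs_le harg]
      simpa using ih s (h.next hd hκ0 hκ b)
    · push Not at harg
      have hnext : 2 * nextB κ β ≤ |nextD dd κ D β b * s - (dd - 1)| := by
        by_contra hcon
        push Not at hcon
        have := h.nesting hd hκ0 hκ b hcon.le
        unfold arg at harg
        rw [abs_div, abs_of_pos hβ, lt_div_iff₀ hβ] at harg
        linarith
      rw [(pert_vanish hd hκ0 hκ l (h.next hd hκ0 hκ b) hnext).2.2, add_zero]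
      rw [abs_mul, abs_mul, sgn_abs, one_mul]
      have e : eps dd κ β * (D / β) = κ / dd * D := by
        unfold eps
        field_simp
      rw [e, abs_of_pos (by positivity : 0 < κ / dd * D)]
      have : κ / dd * D ≤ 7 / 4 * (κ / dd) := by
        have : 0 < κ / dd := by positivity
        nlinarith
      calc κ / dd * D * |g2 (arg dd D β s)| ≤ 7 / 4 * (κ / dd) * C2 := by
            apply mul_le_mul this (hC _) (abs_nonneg _) (by positivity)

end

end Vale.Agent.Lib.P347
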