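import Vale.Agent.Lib.P347.Family
import Vale.Agent.Lib.P347.Radial

open scoped ContDiff

namespace Vale.Agent.Lib.P347

lemma two_le_infty : (2 : WithTop ℕ∞) ≤ ∞ := by
  have : ((2 : ℕ∞) : WithTop ℕ∞) ≤ ((⊤ : ℕ∞) : WithTop ℕ∞) := WithTop.coe_le_coe.2 le_top
  exact this

section

variable {dd κ : ℝ}

lemma arg_hasDerivAt (D β s : ℝ) : HasDerivAt (arg dd D β) (D / β) s := by
  unfold arg
  have : HasDerivAt (fun s => D * s - (dd - 1)) D s := by
    simpa using ((hasDerivAt_id s).const_mul D).sub_const (dd - 1)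
  exact this.div_const β

lemma arg_contDiff (D β : ℝ) : ContDiff ℝ ∞ (arg dd D β) := by
  unfold arg
  exact ((contDiff_const.mul contDiff_id).sub contDiff_const).div_const _

lemma pert_contDiff (l : List Bool) : ∀ (D β : ℝ), ContDiff ℝ ∞ (pert dd κ l D β) := by
  induction l with
  | nil => intro D β; exact contDiff_const
  | cons b l ih =>
    intro D β
    have : pert dd κ (b :: l) D β = fun s => sgn b * (eps dd κ β * β / D) * g (arg dd D β s)
      + pert dd κ l (nextD dd κ D β b) (nextB κ β) s := by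
      ext s; rfl
    rw [this]
    exact (contDiff_const.mul (g_contDiff.comp (arg_contDiff D β))).add (ih _ _)

variable (hd : 2 ≤ dd) (hκ0 : 0 < κ) (hκ : κ ≤ 1 / 4)
include hd hκ0 hκ

lemma pert_hasDerivAt (l : List Bool) : ∀ {D β : ℝ} (s : ℝ), Good dd κ D β →
    HasDerivAt (pert dd κ l D β) (pert1 dd κ l D β s) s := by
  induction l with
  | nil => intro D β s _; exact hasDerivAt_const _ _
  | cons b l ih =>
    intro D β s h
    have hβ : β ≠ 0 := h.1.ne'
    have hD : D ≠ 0 := by have := (h.D_bounds hd hκ0).1; intro h0; rw [h0] at this; norm_num at this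
    have e : pert dd κ (b :: l) D β = fun s => sgn b * (eps dd κ β * β / D) * g (arg dd D β s)
      + pert dd κ l (nextD dd κ D β b) (nextB κ β) s := by
      ext s; rfl
    rw [e, pert1]
    have h1 : HasDerivAt (fun s => g (arg dd D β s)) (g1 (arg dd D β s) * (D / β)) s :=
      (g_hasDerivAt _).comp s (arg_hasDerivAt D β s)
    have h2 : HasDerivAt (fun s => sgn b * (eps dd κ β * β / D) * g (arg dd D β s)
        + pert dd κ l (nextD dd κ D β b) (nextB κ β) s)
        (sgn b * (eps dd κ β * β / D) * (g1 (arg dd D β s) * (D / β))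
          + pert1 dd κ l (nextD dd κ D β b) (nextB κ β) s) s :=
      (h1.const_mul (sgn b * (eps dd κ β * β / D))).add (ih s (h.next hd hκ0 hκ b))
    refine h2.congr_deriv ?_
    field_simp

lemma pert1_hasDerivAt (l : List Bool) : ∀ {D β : ℝ} (s : ℝ), Good dd κ D β →
    HasDerivAt (pert1 dd κ l D β) (pert2 dd κ l D β s) s := by
  induction l with
  | nil => intro D β s _; exact hasDerivAt_const _ _
  | cons b l ih =>
    intro D β s h
    have e : pert1 dd κ (b :: l) D β = fun s => sgn b * eps dd κ β * g1 (arg dd D β s)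
      + pert1 dd κ l (nextD dd κ D β b) (nextB κ β) s := by
      ext s; rfl
    rw [e, pert2]
    have h1 : HasDerivAt (fun s => g1 (arg dd D β s)) (g2 (arg dd D β s) * (D / β)) s :=
      (g1_hasDerivAt _).comp s (arg_hasDerivAt D β s)
    have h2 : HasDerivAt (fun s => sgn b * eps dd κ β * g1 (arg dd D β s)
        + pert1 dd κ l (nextD dd κ D β b) (nextB κ β) s)
        (sgn b * eps dd κ β * (g2 (arg dd D β s) * (D / β))
          + pert2 dd κ l (nextD dd κ D β b) (nextB κ β) s) s :=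
      (h1.const_mul (sgn b * eps dd κ β)).add (ih s (h.next hd hκ0 hκ b))
    refine h2.congr_deriv ?_
    ring

end

section

variable (dd κ : ℝ)

/-- the radial profiles of the hard family -/
noncomputable def prof (β0 : ℝ) (l : List Bool) (s : ℝ) : ℝ := 3 / 4 * s + pert dd κ l (3 / 2) β0 s
noncomputable def prof1 (β0 : ℝ) (l : List Bool) (s : ℝ) : ℝ := 3 / 4 + pert1 dd κ l (3 / 2) β0 s
noncomputable def prof2 (β0 : ℝ) (l : List Bool) (s : ℝ) : ℝ := pert2 dd κ l (3 / 2) β0 s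

end

section

variable {dd κ β0 : ℝ} (hd : 2 ≤ dd) (hκ0 : 0 < κ) (hκ : κ ≤ 1 / 4) (hβ0 : 0 < β0)
  (hβ1 : β0 ≤ dd / 8)
include hd hκ0 hκ hβ0 hβ1

lemma good_init : Good dd κ (3 / 2) β0 := by
  refine ⟨hβ0, hβ1, ?_⟩
  have hdd : 0 < dd := by linarith
  have : 4 * κ * β0 / dd ≤ 1 / 4 := by
    rw [div_le_iff₀ hdd]
    nlinarith
  simpa using this

lemma prof_hasDerivAt (l : List Bool) (s : ℝ) :
    HasDerivAt (prof dd κ β0 l) (prof1 dd κ β0 l s) s := by
  unfold prof prof1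
  have : HasDerivAt (fun s => 3 / 4 * s + pert dd κ l (3 / 2) β0 s)
      (3 / 4 * 1 + pert1 dd κ l (3 / 2) β0 s) s :=
    ((hasDerivAt_id s).const_mul (3 / 4 : ℝ)).add
      (pert_hasDerivAt hd hκ0 hκ l s (good_init hd hκ0 hκ hβ0 hβ1))
  refine this.congr_deriv ?_
  ring

lemma prof1_hasDerivAt (l : List Bool) (s : ℝ) :
    HasDerivAt (prof1 dd κ β0 l) (prof2 dd κ β0 l s) s := by
  unfold prof1 prof2
  exact (pert1_hasDerivAt hd hκ0 hκ l s (good_init hd hκ0 hκ hβ0 hβ1)).const_add (3 / 4 : ℝ)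

omit hd hκ0 hκ hβ0 hβ1 in
lemma prof_contDiff (l : List Bool) : ContDiff ℝ ∞ (prof dd κ β0 l) := by
  unfold prof
  exact (contDiff_const.mul contDiff_id).add (pert_contDiff l _ _)

lemma prof_zero (l : List Bool) : prof dd κ β0 l 0 = 0 := by
  unfold prof
  have hg := good_init hd hκ0 hκ hβ0 hβ1
  have : 2 * β0 ≤ |3 / 2 * 0 - (dd - 1)| := by
    rw [mul_zero, zero_sub, abs_neg, abs_of_nonneg (by linarith)]
    linarith
  rw [(pert_vanish hd hκ0 hκ l hg this).1]
  simp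

variable {C1 C2 : ℝ} (hC1 : ∀ y, |g1 y| ≤ C1) (hC1' : 1 ≤ C1) (hC2 : ∀ y, |g2 y| ≤ C2)
  (hC2' : 1 ≤ C2) (hκC : κ * (C1 + 14 * C2) ≤ 1)
include hC1 hC1' hC2 hC2' hκC

lemma prof_bounds (l : List Bool) (s : ℝ) (hs : 0 ≤ s) :
    (1 ≤ 2 * prof1 dd κ β0 l s ∧ 2 * prof1 dd κ β0 l s ≤ 2) ∧
    (1 ≤ 2 * prof1 dd κ β0 l s + 4 * s * prof2 dd κ β0 l s ∧
      2 * prof1 dd κ β0 l s + 4 * s * prof2 dd κ β0 l s ≤ 2) := by
  have hg := good_init hd hκ0 hκ hβ0 hβ1
  have hdd : 0 < dd := by linarith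
  have b1 := pert1_bound hd hκ0 hκ hC1 hC1' l s hg
  have b1' : |pert1 dd κ l (3 / 2) β0 s| ≤ C1 * κ / 4 := by
    refine b1.trans ?_
    have : κ * β0 / dd ≤ κ / 8 := by
      rw [div_le_iff₀ hdd]
      nlinarith
    nlinarith
  have b2 : |4 * s * pert2 dd κ l (3 / 2) β0 s| ≤ 7 * κ * C2 := by
    by_cases hsupp : |3 / 2 * s - (dd - 1)| ≤ 2 * β0
    · have hs2 := (hg.supp_bounds hd hκ0 hsupp).2
      have b := pert2_bound hd hκ0 hκ hC2 hC2' l s hg
      rw [abs_mul, abs_of_nonneg (by positivity : 0 ≤ 4 * s)]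
      have h7 : 0 ≤ 7 / 4 * (κ / dd) * C2 := by positivity
      calc 4 * s * |pert2 dd κ l (3 / 2) β0 s| ≤ 4 * dd * (7 / 4 * (κ / dd) * C2) := by
            apply mul_le_mul (by linarith) b (abs_nonneg _) (by positivity)
        _ = 7 * κ * C2 := by field_simp
    · push Not at hsupp
      rw [(pert_vanish hd hκ0 hκ l hg hsupp.le).2.2]
      simp only [mul_zero, abs_zero]
      positivity
  rw [abs_le] at b1' b2
  unfold prof1 prof2
  refine ⟨⟨?_, ?_⟩, ⟨?_, ?_⟩⟩ <;> nlinarith [b1'.1, b1'.2, b2.1, b2.2]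

lemma prof_mem_class {d : ℕ} (l : List Bool) :
    (radial (prof dd κ β0 l) : E d → ℝ) ∈ PotentialClass d := by
  apply radial_mem_class ((prof_contDiff l).of_le two_le_infty)
    (prof_hasDerivAt hd hκ0 hκ hβ0 hβ1 l) (prof1_hasDerivAt hd hκ0 hκ hβ0 hβ1 l)
    (prof_zero hd hκ0 hκ hβ0 hβ1 l)
  · intro s hs
    exact (prof_bounds hd hκ0 hκ hβ0 hβ1 hC1 hC1' hC2 hC2' hκC l s hs).1
  · intro s hs
    exact (prof_bounds hd hκ0 hκ hβ0 hβ1 hC1 hC1' hC2 hC2' hκC l s hs).2

end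

end Vale.Agent.Lib.P347
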