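import Vale.Agent.Lib.P347.Averaging

open MeasureTheory

namespace Vale.Agent.Lib.P347

lemma cond_of_pow {M w s D : ℝ} (hM : 1 ≤ M) (hw : 0 ≤ w) (hs : 0 ≤ s) (hD : s * s = D)
    (h1 : M * (21 * w + 1) ≤ s) :
    7 / 4 * (2 * w * s + w ^ 2) ≤ 2 * (M⁻¹ * (D / 8)) := by
  have hM0 : 0 < M := by linarith
  have hwM : w ≤ w * M := by nlinarith
  have h2 : 21 * (w * M) ≤ s := by nlinarith
  have hwle : w ≤ s := by linarith
  have hww : w * w ≤ w * s := mul_le_mul_of_nonneg_left hwle hw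
  have h3 : 7 / 4 * (2 * w * s + w ^ 2) ≤ 21 / 4 * (w * s) := by nlinarith
  have h4 : 21 * (w * M) * s ≤ s * s := mul_le_mul_of_nonneg_right h2 hs
  have h5 : 21 / 4 * (w * s) * M ≤ D / 4 := by rw [← hD]; nlinarith
  calc 7 / 4 * (2 * w * s + w ^ 2) ≤ 21 / 4 * (w * s) := h3
    _ = (21 / 4 * (w * s) * M) * M⁻¹ := by field_simp
    _ ≤ (D / 4) * M⁻¹ := mul_le_mul_of_nonneg_right h5 (by positivity)
    _ = 2 * (M⁻¹ * (D / 8)) := by ring

lemma log_step {L q : ℕ} {p : ℝ} (hp : 0 < p) (h : (3 / 2 : ℝ) ^ L * p ≤ 3 ^ q) :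
    L * Real.log (3 / 2) + Real.log p ≤ q * Real.log 3 := by
  have hlogs := Real.log_le_log (by positivity) h
  rwa [Real.log_mul (by positivity) (by positivity), Real.log_pow, Real.log_pow] at hlogs

lemma key_step {K a p s : ℝ} {q : ℕ} (hK : 1 < K) (ha : 1 ≤ a) (hp0 : 0 < p) (hp1 : p ≤ 1)
    (hs : 0 < s)
    (H : ∀ L : ℕ, K ^ L * a ≤ s → (3 / 2 : ℝ) ^ L * p ≤ 3 ^ q) :
    Real.log (3 / 2) * ((Real.log s - Real.log a) / Real.log K - 1) + Real.log p
      ≤ q * Real.log 3 := by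
  have hlogK : 0 < Real.log K := Real.log_pos hK
  have hlog3 : 0 < Real.log 3 := Real.log_pos (by norm_num)
  have hlog32 : 0 < Real.log (3 / 2) := Real.log_pos (by norm_num)
  have hlogp : Real.log p ≤ 0 := Real.log_nonpos hp0.le hp1
  have ha0 : 0 < a := by linarith
  by_cases hcase : a ≤ s
  · have hy1 : 1 ≤ s / a := by rw [le_div_iff₀ ha0]; linarith
    have hlogy : Real.log (s / a) = Real.log s - Real.log a :=
      Real.log_div hs.ne' ha0.ne'
    have hL1 : ((⌊Real.log (s / a) / Real.log K⌋₊ : ℕ) : ℝ) ≤ Real.log (s / a) / Real.log K :=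
      Nat.floor_le (div_nonneg (Real.log_nonneg hy1) hlogK.le)
    have hL2 : Real.log (s / a) / Real.log K < (⌊Real.log (s / a) / Real.log K⌋₊ : ℕ) + 1 :=
      Nat.lt_floor_add_one _
    generalize ⌊Real.log (s / a) / Real.log K⌋₊ = L at hL1 hL2
    have hKL : K ^ L ≤ s / a := by
      rw [← Real.log_le_log_iff (by positivity) (by linarith), Real.log_pow]
      rwa [le_div_iff₀ hlogK] at hL1
    rw [le_div_iff₀ ha0] at hKL
    have h := log_step hp0 (H L hKL)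
    rw [← hlogy]
    have h5 : Real.log (s / a) / Real.log K - 1 ≤ L := by linarith
    have h6 := mul_le_mul_of_nonneg_left h5 hlog32.le
    linarith
  · push Not at hcase
    have h1 : Real.log s - Real.log a ≤ 0 := by
      have := Real.log_le_log hs hcase.le
      linarith
    have h2 : (Real.log s - Real.log a) / Real.log K ≤ 0 :=
      div_nonpos_of_nonpos_of_nonneg h1 hlogK.le
    have h3 : (0 : ℝ) ≤ q * Real.log 3 := by positivity
    have h4 : Real.log (3 / 2) * ((Real.log s - Real.log a) / Real.log K - 1) ≤ 0 :=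
      mul_nonpos_of_nonneg_of_nonpos hlog32.le (by linarith)
    linarith

lemma exp_choice {p : ℝ} (hp0 : 0 < p) (hp1 : p ≤ 1) :
    2 * Real.exp (-((Real.sqrt (2 * Real.log (4 / p))) ^ 2 / 2)) = p / 2 := by
  have hlog4 : 0 ≤ Real.log (4 / p) := by
    apply Real.log_nonneg
    rw [le_div_iff₀ hp0]; linarith
  rw [Real.sq_sqrt (by positivity)]
  have h1 : Real.log (p / 4) = -Real.log (4 / p) := by rw [← Real.log_inv, inv_div]
  have : -(2 * Real.log (4 / p) / 2) = Real.log (p / 4) := by rw [h1]; ring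
  rw [this, Real.exp_log (by positivity)]
  ring

/-- Uniform finite statement with explicit constants `K`, `a`. -/
lemma finite_uniform (δ : ℝ) (hδ1 : δ < 1) (hδ0 : 0 ≤ δ) :
    ∃ K a : ℝ, 1 < K ∧ 1 ≤ a ∧ ∀ d : ℕ, 2 ≤ d → ∀ q : ℕ,
      (∃ A : Sampler d, A.Achieves q δ) → ∀ L : ℕ, K ^ L * a ≤ Real.sqrt d →
        (3 / 2 : ℝ) ^ L * ((1 - δ) / 2) ≤ 3 ^ q := by
  obtain ⟨C1, hC1', hC1⟩ := exists_g1_bound
  obtain ⟨C2, hC2', hC2⟩ := exists_g2_bound
  have hsum : 15 ≤ C1 + 14 * C2 := by linarith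
  have hκ0 : 0 < 1 / (C1 + 14 * C2) := by positivity
  have hκ : 1 / (C1 + 14 * C2) ≤ 1 / 4 := by
    apply one_div_le_one_div_of_le <;> linarith
  have hκC : 1 / (C1 + 14 * C2) * (C1 + 14 * C2) ≤ 1 := by
    rw [one_div, inv_mul_cancel₀ (by linarith)]
  have hp0 : 0 < 1 - δ := by linarith
  have hp1 : 1 - δ ≤ 1 := by linarith
  have hw0 : 0 ≤ Real.sqrt (2 * Real.log (4 / (1 - δ))) := Real.sqrt_nonneg _
  have hexp := exp_choice hp0 hp1
  generalize Real.sqrt (2 * Real.log (4 / (1 - δ))) = w at hw0 hexp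
  generalize 1 / (C1 + 14 * C2) = κ at hκ0 hκ hκC
  refine ⟨8 / κ, 21 * w + 1, ?_, by linarith, ?_⟩
  · rw [lt_div_iff₀ hκ0]; linarith
  intro d hd q ⟨A, hA⟩ L hL
  have hdd : (2 : ℝ) ≤ d := by exact_mod_cast hd
  have hd0 : (0 : ℝ) < d := by linarith
  have hK1 : 1 ≤ 8 / κ := by rw [le_div_iff₀ hκ0]; linarith
  have hcond : 7 / 4 * (2 * w * Real.sqrt d + w ^ 2) ≤ 2 * ((κ / 8) ^ L * ((d : ℝ) / 8)) := by
    have := cond_of_pow (one_le_pow₀ hK1 : 1 ≤ (8 / κ) ^ L) hw0 (Real.sqrt_nonneg d)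
      (Real.mul_self_sqrt hd0.le) hL
    rwa [← inv_pow, inv_div] at this
  have hmain := main_finite hd hκ0 hκ (by positivity : (0 : ℝ) < (d : ℝ) / 8) le_rfl
    hC1 hC1' hC2 hC2' hκC A q L hA hw0 hcond
  rw [sub_sub, hexp] at hmain
  have e : 1 - (δ + (1 - δ) / 2) = (1 - δ) / 2 := by ring
  rwa [e] at hmain

/-- **Logarithmic lower bound at every accuracy `δ < 1`.** -/
theorem lower_bound (δ : ℝ) (hδ0 : 0 ≤ δ) (hδ1 : δ < 1) :
    ∃ c : ℝ, 0 < c ∧ ∃ C : ℝ, ∀ d : ℕ, 2 ≤ d → ∀ q : ℕ,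
      (∃ A : Sampler d, A.Achieves q δ) → c * Real.log d - C ≤ q := by
  obtain ⟨K, a, hK1, ha1, H⟩ := finite_uniform δ hδ1 hδ0
  have hlogK : 0 < Real.log K := Real.log_pos hK1
  have hlog3 : 0 < Real.log 3 := Real.log_pos (by norm_num)
  have hlog32 : 0 < Real.log (3 / 2) := Real.log_pos (by norm_num)
  refine ⟨Real.log (3 / 2) / (2 * Real.log K * Real.log 3), by positivity,
    (Real.log (3 / 2) * (Real.log a / Real.log K + 1) - Real.log ((1 - δ) / 2)) / Real.log 3, ?_⟩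
  intro d hd q hA
  have hdd : (2 : ℝ) ≤ d := by exact_mod_cast hd
  have hd0 : (0 : ℝ) < d := by linarith
  have hsq0 : 0 < Real.sqrt d := Real.sqrt_pos.2 hd0
  have hlogsqrt : Real.log (Real.sqrt d) = Real.log d / 2 := Real.log_sqrt hd0.le
  have key := key_step (q := q) hK1 ha1 (by linarith : 0 < (1 - δ) / 2) (by linarith) hsq0
    (H d hd q hA)
  rw [hlogsqrt] at key
  generalize Real.log ((1 - δ) / 2) = lp at key ⊢
  generalize Real.log a = la at key ⊢
  generalize Real.log (d : ℝ) = ld at key ⊢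
  generalize Real.log K = lK at key hlogK ⊢
  generalize Real.log 3 = l3 at key hlog3 ⊢
  generalize Real.log (3 / 2) = l32 at key ⊢
  have hfinal : l32 / (2 * lK * l3) * ld - (l32 * (la / lK + 1) - lp) / l3
      = (l32 * ((ld / 2 - la) / lK - 1) + lp) / l3 := by
    field_simp
    ring
  rw [hfinal, div_le_iff₀ hlog3]
  exact key

end Vale.Agent.Lib.P347
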