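import Mathlib

open scoped ContDiff

namespace Vale.Agent.Lib.P347

/-- the profile: `g y = y` near `[-1,1]`, `g y = 0` near `{|y| ≥ 2}`, smooth -/
noncomputable def g (y : ℝ) : ℝ := y * Real.smoothTransition (3 - y ^ 2)

noncomputable def g1 : ℝ → ℝ := deriv g
noncomputable def g2 : ℝ → ℝ := deriv g1

lemma g_contDiff : ContDiff ℝ ∞ g := by
  unfold g
  exact contDiff_id.mul (Real.smoothTransition.contDiff.comp
    (contDiff_const.sub (contDiff_id.pow 2)))

lemma g1_contDiff : ContDiff ℝ ∞ g1 := by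
  have := g_contDiff
  rw [show (∞ : WithTop ℕ∞) = ∞ + 1 from rfl, contDiff_succ_iff_deriv] at this
  exact this.2.2

lemma g2_contDiff : ContDiff ℝ ∞ g2 := by
  have := g1_contDiff
  rw [show (∞ : WithTop ℕ∞) = ∞ + 1 from rfl, contDiff_succ_iff_deriv] at this
  exact this.2.2

lemma g_hasDerivAt (y : ℝ) : HasDerivAt g (g1 y) y :=
  ((g_contDiff.differentiable (by simp)) y).hasDerivAt

lemma g1_hasDerivAt (y : ℝ) : HasDerivAt g1 (g2 y) y :=
  ((g1_contDiff.differentiable (by simp)) y).hasDerivAt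

lemma g_eq_self {y : ℝ} (h : y ^ 2 ≤ 2) : g y = y := by
  unfold g
  rw [Real.smoothTransition.one_of_one_le (by linarith)]
  ring

lemma g_eq_zero {y : ℝ} (h : 3 ≤ y ^ 2) : g y = 0 := by
  unfold g
  rw [Real.smoothTransition.zero_of_nonpos (by linarith)]
  ring

lemma g_eventually_self {y : ℝ} (h : |y| ≤ 1) : g =ᶠ[nhds y] fun z => z := by
  have hy : y ^ 2 < 2 := by
    have : y ^ 2 ≤ 1 := by rw [← sq_abs]; nlinarith [abs_nonneg y]
    linarith
  have : ∀ᶠ z in nhds y, z ^ 2 < 2 :=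
    (continuous_pow 2).continuousAt.eventually_lt continuousAt_const hy
  filter_upwards [this] with z hz
  exact g_eq_self hz.le

lemma g_eventually_zero {y : ℝ} (h : 2 ≤ |y|) : g =ᶠ[nhds y] fun _ => 0 := by
  have hy : 3 < y ^ 2 := by
    have : 4 ≤ y ^ 2 := by rw [← sq_abs]; nlinarith [abs_nonneg y]
    linarith
  have : ∀ᶠ z in nhds y, 3 < z ^ 2 :=
    continuousAt_const.eventually_lt (continuous_pow 2).continuousAt hy
  filter_upwards [this] with z hz
  exact g_eq_zero hz.le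

lemma g_of_abs_le {y : ℝ} (h : |y| ≤ 1) : g y = y := (g_eventually_self h).self_of_nhds
lemma g_of_le_abs {y : ℝ} (h : 2 ≤ |y|) : g y = 0 := (g_eventually_zero h).self_of_nhds

lemma g1_eventually_one {y : ℝ} (h : |y| ≤ 1) : g1 =ᶠ[nhds y] fun _ => 1 := by
  have hy : y ^ 2 < 2 := by
    have : y ^ 2 ≤ 1 := by rw [← sq_abs]; nlinarith [abs_nonneg y]
    linarith
  have : ∀ᶠ z in nhds y, z ^ 2 < 2 :=
    (continuous_pow 2).continuousAt.eventually_lt continuousAt_const hy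
  have h2 := this.eventually_nhds
  filter_upwards [h2] with z hz
  have : g =ᶠ[nhds z] fun w => w := by
    filter_upwards [hz] with w hw
    exact g_eq_self hw.le
  unfold g1
  rw [this.deriv_eq]
  simp

lemma g1_eventually_zero {y : ℝ} (h : 2 ≤ |y|) : g1 =ᶠ[nhds y] fun _ => 0 := by
  have hy : 3 < y ^ 2 := by
    have : 4 ≤ y ^ 2 := by rw [← sq_abs]; nlinarith [abs_nonneg y]
    linarith
  have : ∀ᶠ z in nhds y, 3 < z ^ 2 :=
    continuousAt_const.eventually_lt (continuous_pow 2).continuousAt hy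
  have h2 := this.eventually_nhds
  filter_upwards [h2] with z hz
  have : g =ᶠ[nhds z] fun _ => 0 := by
    filter_upwards [hz] with w hw
    exact g_eq_zero hw.le
  unfold g1
  rw [this.deriv_eq]
  simp

lemma g1_of_abs_le {y : ℝ} (h : |y| ≤ 1) : g1 y = 1 := (g1_eventually_one h).self_of_nhds
lemma g1_of_le_abs {y : ℝ} (h : 2 ≤ |y|) : g1 y = 0 := (g1_eventually_zero h).self_of_nhds

lemma g2_of_abs_le {y : ℝ} (h : |y| ≤ 1) : g2 y = 0 := by
  unfold g2
  rw [(g1_eventually_one h).deriv_eq]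
  simp

lemma g2_of_le_abs {y : ℝ} (h : 2 ≤ |y|) : g2 y = 0 := by
  unfold g2
  rw [(g1_eventually_zero h).deriv_eq]
  simp

lemma exists_bound_of_zero_outside {f : ℝ → ℝ} (hf : Continuous f)
    (h0 : ∀ y, 2 ≤ |y| → f y = 0) : ∃ C, 1 ≤ C ∧ ∀ y, |f y| ≤ C := by
  obtain ⟨C, hC⟩ := (isCompact_Icc (a := (-2 : ℝ)) (b := 2)).exists_bound_of_continuousOn
    hf.continuousOn
  refine ⟨max C 1, le_max_right _ _, fun y => ?_⟩
  by_cases hy : 2 ≤ |y|
  · rw [h0 y hy]
    simp
  · push Not at hy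
    have := hC y (abs_le.1 hy.le)
    exact le_trans this (le_max_left _ _)

lemma exists_g1_bound : ∃ C, 1 ≤ C ∧ ∀ y, |g1 y| ≤ C :=
  exists_bound_of_zero_outside g1_contDiff.continuous fun _ h => g1_of_le_abs h

lemma exists_g2_bound : ∃ C, 1 ≤ C ∧ ∀ y, |g2 y| ≤ C :=
  exists_bound_of_zero_outside g2_contDiff.continuous fun _ h => g2_of_le_abs h

end Vale.Agent.Lib.P347
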