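import Vale.Agent.Lib.P347.ConcRd
import Vale.Agent.Lib.P347.Counting

open MeasureTheory

namespace Vale.Agent.Lib.P347

section

variable {dd κ : ℝ} (hd : 2 ≤ dd) (hκ0 : 0 < κ) (hκ : κ ≤ 1 / 4)
include hd hκ0 hκ

lemma good_fin (l : List Bool) : ∀ {D β : ℝ}, Good dd κ D β →
    Good dd κ (finD dd κ l D β) (finB κ l β) := by
  induction l with
  | nil => intro D β h; exact h
  | cons b l ih => intro D β h; exact ih (h.next hd hκ0 hκ b)

omit hd hκ0 hκ in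
lemma finB_eq (l : List Bool) : ∀ β : ℝ, finB κ l β = (κ / 8) ^ l.length * β := by
  induction l with
  | nil => intro β; simp [finB]
  | cons b l ih =>
    intro β
    rw [finB, ih, nextB, List.length_cons, pow_succ]
    ring

end

/-- the success shell of the potential with bits `l` -/
def shell (d : ℕ) (κ β0 : ℝ) (l : List Bool) : Set (E d) :=
  {x | |finD d κ l (3 / 2) β0 * ‖x‖ ^ 2 - ((d : ℝ) - 1)| < 2 * finB κ l β0}

section

variable {d : ℕ} {κ β0 : ℝ} (hd : 2 ≤ d) (hκ0 : 0 < κ) (hκ : κ ≤ 1 / 4) (hβ0 : 0 < β0)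
  (hβ1 : β0 ≤ (d : ℝ) / 8)
  {C1 C2 : ℝ} (hC1 : ∀ y, |g1 y| ≤ C1) (hC1' : 1 ≤ C1) (hC2 : ∀ y, |g2 y| ≤ C2)
  (hC2' : 1 ≤ C2) (hκC : κ * (C1 + 14 * C2) ≤ 1)

include hd hκ0 hκ hβ0 hβ1 hC1 hC1' hC2 hC2' hκC

theorem gibbs_shell (l : List Bool) {w : ℝ} (hw : 0 ≤ w)
    (hcond : 7 / 4 * (2 * w * Real.sqrt d + w ^ 2) ≤ 2 * finB κ l β0) :
    1 - 2 * Real.exp (-(w ^ 2 / 2)) ≤ (gibbs (radial (prof d κ β0 l) : E d → ℝ)).real
      (shell d κ β0 l) := by
  have hdd : (2 : ℝ) ≤ d := by exact_mod_cast hd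
  have hg0 := good_init hdd hκ0 hκ hβ0 hβ1
  have hgf := good_fin hdd hκ0 hκ l hg0
  obtain ⟨hD1, hD2⟩ := hgf.D_bounds hdd hκ0
  set DL := finD d κ l (3 / 2) β0 with hDL
  set F := prof d κ β0 l with hF
  set F1 := prof1 d κ β0 l with hF1
  set F2 := prof2 d κ β0 l with hF2
  have h1 : ∀ s, HasDerivAt F (F1 s) s := prof_hasDerivAt hdd hκ0 hκ hβ0 hβ1 l
  have h2 : ∀ s, HasDerivAt F1 (F2 s) s := prof1_hasDerivAt hdd hκ0 hκ hβ0 hβ1 l
  have h0 : F 0 = 0 := prof_zero hdd hκ0 hκ hβ0 hβ1 l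
  have hb := prof_bounds hdd hκ0 hκ hβ0 hβ1 hC1 hC1' hC2 hC2' hκC l
  have hb1 : ∀ s, 0 ≤ s → 1 ≤ 2 * F1 s := fun s hs => (hb s hs).1.1
  have hb2 : ∀ s, 0 ≤ s → 1 ≤ 2 * F1 s + 4 * s * F2 s := fun s hs => (hb s hs).2.1
  have hint := rho_integrable h1 h0 hb1 (d - 1)
  have hpos := rho_integral_pos h1 h0 hb1 (d - 1)
  -- the critical radius
  have hq : 0 < ((d : ℝ) - 1) / DL := by
    apply div_pos <;> linarith
  set rs := Real.sqrt (((d : ℝ) - 1) / DL) with hrs_def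
  have hrs : 0 < rs := Real.sqrt_pos.2 hq
  have hrs2 : rs ^ 2 = ((d : ℝ) - 1) / DL := Real.sq_sqrt hq.le
  have hDrs : DL * rs ^ 2 = (d : ℝ) - 1 := by
    rw [hrs2]; field_simp
  have hF1rs : F1 (rs ^ 2) = DL / 2 := by
    have hfin : |finD d κ l (3 / 2) β0 * rs ^ 2 - ((d : ℝ) - 1)| < 2 * finB κ l β0 := by
      rw [← hDL, hDrs, sub_self, abs_zero]
      have := hgf.1
      linarith
    have := pert1_plateau hdd hκ0 hκ l hg0 hfin
    rw [hF1]
    unfold prof1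
    rw [this]
    ring
  have hcast : ((d - 1 : ℕ) : ℝ) = (d : ℝ) - 1 := by
    rw [Nat.cast_sub (by omega)]; simp
  have hroot : 2 * rs * F1 (rs ^ 2) = ((d - 1 : ℕ) : ℝ) / rs := by
    rw [hF1rs, hcast, eq_div_iff hrs.ne', ← hDrs]
    ring
  have hrs_le : rs ≤ Real.sqrt d := by
    apply Real.sqrt_le_sqrt
    rw [div_le_iff₀ (by linarith)]
    nlinarith
  -- tails
  have t1 := gibbs_radial_le hd hint hpos measurableSet_Ici
    (tail_right h1 h2 hb2 hrs hroot hint hw)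
  have t2 := gibbs_radial_le hd hint hpos measurableSet_Iic
    (tail_left h1 h2 hb2 hrs hroot hint hw)
  have := gibbs_radial_isProb hd hint hpos
  have hsub : (shell d κ β0 l)ᶜ ⊆ {x : E d | ‖x‖ ∈ Set.Ici (rs + w)} ∪ {x | ‖x‖ ∈ Set.Iic (rs - w)} := by
    intro x hx
    by_contra hcon
    simp only [Set.mem_union, Set.mem_ofPred_eq, Set.mem_Ici, Set.mem_Iic, not_or, not_le] at hcon
    obtain ⟨c1, c2⟩ := hcon
    apply hx
    show |finD d κ l (3 / 2) β0 * ‖x‖ ^ 2 - ((d : ℝ) - 1)| < 2 * finB κ l β0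
    rw [← hDL, ← hDrs, ← mul_sub, abs_mul, abs_of_pos (by linarith : 0 < DL)]
    have hx0 : 0 ≤ ‖x‖ := norm_nonneg x
    have hlt : |‖x‖ ^ 2 - rs ^ 2| < 2 * rs * w + w ^ 2 := by
      rw [abs_lt]
      constructor
      · nlinarith
      · nlinarith
    have hw2 : 0 ≤ 2 * rs * w + w ^ 2 := by positivity
    calc DL * |‖x‖ ^ 2 - rs ^ 2| < DL * (2 * rs * w + w ^ 2) := by
          apply mul_lt_mul_of_pos_left hlt (by linarith)
      _ ≤ 7 / 4 * (2 * w * Real.sqrt d + w ^ 2) := by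
          have : 2 * rs * w + w ^ 2 ≤ 2 * w * Real.sqrt d + w ^ 2 := by nlinarith
          nlinarith
      _ ≤ _ := hcond
  have hmeas : MeasurableSet (shell d κ β0 l) := by
    apply IsOpen.measurableSet
    unfold shell
    apply isOpen_lt <;> fun_prop
  have hc : (gibbs (radial F : E d → ℝ)) (shell d κ β0 l)ᶜ
      ≤ ENNReal.ofReal (2 * Real.exp (-(w ^ 2 / 2))) := by
    refine (measure_mono hsub).trans ((measure_union_le _ _).trans ?_)
    rw [two_mul, ENNReal.ofReal_add (Real.exp_pos _).le (Real.exp_pos _).le]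
    exact add_le_add t1 t2
  have hreal : (gibbs (radial F : E d → ℝ)).real (shell d κ β0 l)ᶜ
      ≤ 2 * Real.exp (-(w ^ 2 / 2)) := by
    rw [measureReal_def]
    exact ENNReal.toReal_le_of_le_ofReal (by positivity) hc
  rw [probReal_compl_eq_one_sub hmeas] at hreal
  linarith

end

end Vale.Agent.Lib.P347
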